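import Vale.Agent.P091.H788.Lower

set_option linter.all false

/-! Summation over the cells. -/

namespace Vale.Agent.P091.H788

open Finset Real MeasureTheory AddCircle Vale.Agent.P091 Vale.Agent.P091.H409

/-- geometry of one difference -/
lemma geom_v {m r X Y i : ℕ} (hr : 0 < r) (hX : X < 2 ^ m) (hY : Y < 2 ^ m) (hi : i < r) {τ : ℝ}
    (h1 : 1 / 2 ≤ τ) (h2 : τ ≤ 3 / 4) (hθ0 : 1 / 8 ≤ ((X : ℝ) + τ) / 2 ^ m)
    (hθ1 : ((X : ℝ) + τ) / 2 ^ m ≤ 7 / 8) :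
    ∃ δ : ℝ, 1 / 4 ≤ δ ∧ δ ≤ 3 / 4 ∧ ((X : ℝ) + τ) / 2 ^ m - gp m r Y i =
      ((((X : ℤ) - (Y : ℤ) : ℤ) : ℝ) + δ) / ((2 ^ m : ℕ) : ℝ) ∧
      |((X : ℝ) + τ) / 2 ^ m - gp m r Y i| ≤ 7 / 8 ∧
      2 * ((1 / 4) / ((2 ^ m : ℕ) : ℝ)) ≤ |sin (π * (((X : ℝ) + τ) / 2 ^ m - gp m r Y i))| := by
  have hr' : (0 : ℝ) < r := by exact_mod_cast hr
  have hi' : (i : ℝ) / (4 * r) ≤ 1 / 4 := by
    rw [div_le_div_iff₀ (by positivity) (by norm_num)]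
    have : (i : ℝ) ≤ r := by exact_mod_cast hi.le
    linarith
  have hi0 : 0 ≤ (i : ℝ) / (4 * r) := by positivity
  have hp : (0 : ℝ) < 2 ^ m := by positivity
  refine ⟨τ - (i : ℝ) / (4 * r), by linarith, by linarith, sub_gp, ?_, ?_⟩
  · have hg0 : 0 ≤ gp m r Y i := by unfold gp; positivity
    have hg1 : gp m r Y i ≤ 1 := by
      unfold gp
      rw [div_le_one hp]
      have : (Y : ℝ) + 1 ≤ 2 ^ m := by exact_mod_cast hY
      linarith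
    rw [abs_le]
    constructor <;> linarith
  · rw [sub_gp]
    have h4 : |τ - (i : ℝ) / (4 * r)| = τ - (i : ℝ) / (4 * r) := abs_of_nonneg (by linarith)
    apply sin_off (by positivity) (abs_cell hX hY) (by norm_num)
    · rw [h4]; linarith
    · rw [h4]; linarith

lemma term_other {m r X Y i : ℕ} (hr : 0 < r) (hbig : 8 * (2 ^ m : ℝ) ^ 2 ≤ gn m r)
    (hX : X < 2 ^ m) (hY : Y < 2 ^ m) (hXY : X ≠ Y) (hi : i < r) {τ : ℝ}
    (h1 : 1 / 2 ≤ τ) (h2 : τ ≤ 3 / 4) (hθ0 : 1 / 8 ≤ ((X : ℝ) + τ) / 2 ^ m)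
    (hθ1 : ((X : ℝ) + τ) / 2 ^ m ≤ 7 / 8) (e : ℝ) :
    2 ^ m * (1 / 10) * (1 / (|(X : ℝ) - Y| + 1)) - 21 / 4 -
      8 * π * 2 ^ m * (|e| * (1 / |(X : ℝ) - Y|)) ≤
    ((((if Y < X then (-1 : ℝ) else 1) : ℝ) : ℂ) * Complex.exp (-(2 * π * Complex.I * e)) *
      GG (gn m r) (((X : ℝ) + τ) / 2 ^ m - gp m r Y i)).im := by
  obtain ⟨δ, hδ1, hδ2, hv, hv1, hsin⟩ := geom_v hr hX hY hi h1 h2 hθ0 hθ1
  obtain ⟨k1, k2, k3, k4, k5⟩ := cell_v hXY hδ1 hδ2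
  set v : ℝ := ((X : ℝ) + τ) / 2 ^ m - gp m r Y i with hvdef
  set d : ℝ := |(X : ℝ) - Y| with hd
  have hp : (0 : ℝ) < 2 ^ m := by positivity
  have hd0 : 0 < d := by linarith
  have hdm : d ≤ 2 ^ m := by
    rw [hd, abs_le]
    have e1 : (X : ℝ) + 1 ≤ 2 ^ m := by exact_mod_cast hX
    have e2 : (Y : ℝ) + 1 ≤ 2 ^ m := by exact_mod_cast hY
    have e3 : (0 : ℝ) ≤ X := by positivity
    have e4 : (0 : ℝ) ≤ Y := by positivity
    constructor <;> linarith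
  have hpc : ((2 ^ m : ℕ) : ℝ) = 2 ^ m := by push_cast; rfl
  have hva : |v| = |(((X : ℤ) - (Y : ℤ) : ℤ) : ℝ) + δ| / 2 ^ m := by
    rw [hv, abs_div, hpc, abs_of_pos hp]
  have hv0 : 0 < |v| := by
    rw [hva]
    apply div_pos _ hp
    linarith
  have hlow : 1 / |v| ≤ 4 * 2 ^ m / d := by
    rw [hva, one_div_div, div_le_div_iff₀ (by linarith) hd0]
    nlinarith
  have hupp : 2 ^ m / (d + 1) ≤ 1 / |v| := by
    rw [hva, one_div_div]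
    apply div_le_div_of_nonneg_left hp.le (by linarith) k2
  have hG := GG_norm hr hbig hsin hv0 hv1
  have hone : 1 ≤ 2 ^ m / d := by rw [le_div_iff₀ hd0]; linarith
  have hG2 : ‖GG (gn m r) v‖ ≤ 4 * (2 ^ m / d) := by
    have : 4 * 2 ^ m / d = 4 * (2 ^ m / d) := by ring
    rw [this] at hlow
    linarith
  have hb : Y < X → 0 < v := by
    intro h
    rw [hv, hpc]
    exact div_pos (k3 h) hp
  have hb' : ¬ (Y < X) → v < 0 := by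
    intro h
    rw [hv, hpc]
    exact div_neg_of_neg_of_pos (k4 h) hp
  have him := GG_im (b := Y < X) hr hbig hsin hb hb' hv1
  have hs : (if Y < X then (-1 : ℝ) else 1) = 1 ∨ (if Y < X then (-1 : ℝ) else 1) = -1 := by
    split_ifs
    · exact Or.inr rfl
    · exact Or.inl rfl
  have hfin := perturb (e := e) hs hG2 him
  refine le_trans ?_ hfin
  have e1 : 1 / (10 * |v|) = (1 / 10) * (1 / |v|) := by
    field_simp
  rw [e1]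
  have e2 : (2 : ℝ) ^ m * (1 / 10) * (1 / (d + 1)) = (1 / 10) * (2 ^ m / (d + 1)) := by
    field_simp
  rw [e2]
  have e3 : 8 * π * 2 ^ m * (|e| * (1 / d)) = 2 * π * |e| * (4 * (2 ^ m / d)) := by
    ring
  rw [e3]
  linarith

lemma term_own {m r X i : ℕ} (hr : 0 < r) (hbig : 8 * (2 ^ m : ℝ) ^ 2 ≤ gn m r)
    (hX : X < 2 ^ m) (hi : i < r) {τ : ℝ}
    (h1 : 1 / 2 ≤ τ) (h2 : τ ≤ 3 / 4) (hθ0 : 1 / 8 ≤ ((X : ℝ) + τ) / 2 ^ m)
    (hθ1 : ((X : ℝ) + τ) / 2 ^ m ≤ 7 / 8) {w : ℂ} (hw : ‖w‖ = 1) :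
    -(4 * 2 ^ m : ℝ) ≤ (w * GG (gn m r) (((X : ℝ) + τ) / 2 ^ m - gp m r X i)).im := by
  obtain ⟨δ, hδ1, hδ2, hv, hv1, hsin⟩ := geom_v hr hX hX hi h1 h2 hθ0 hθ1
  set v : ℝ := ((X : ℝ) + τ) / 2 ^ m - gp m r X i with hvdef
  have hp : (0 : ℝ) < 2 ^ m := by positivity
  have hp1 : (1 : ℝ) ≤ 2 ^ m := one_le_pow₀ (by norm_num)
  have hva : |v| = δ / 2 ^ m := by
    rw [hv]
    push_cast
    rw [sub_self, zero_add, abs_of_pos (by positivity)]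
  have hv0 : 0 < |v| := by rw [hva]; positivity
  have hlow : 1 / |v| ≤ 4 * 2 ^ m := by
    rw [hva, one_div_div, div_le_iff₀ (by linarith)]
    nlinarith
  have hG := GG_norm hr hbig hsin hv0 hv1
  have hG2 : ‖GG (gn m r) v‖ ≤ 4 * 2 ^ m := by
    linarith
  have h3 : ‖w * GG (gn m r) v‖ ≤ 4 * 2 ^ m := by
    rw [norm_mul, hw, one_mul]; exact hG2
  have h4 := (Complex.abs_im_le_norm _).trans h3
  exact (abs_le.mp h4).1

/-- sum over all cells -/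
lemma im_lower {q s m r X : ℕ} (hq : Even q) (hq2 : 2 ≤ q) (hs : 0 < s) (hm : 1 ≤ m)
    (hr : 0 < r) (hbig : 8 * (2 ^ m : ℝ) ^ 2 ≤ gn m r)
    (hX : X < 2 ^ m) {τ : ℝ}
    (h1 : 1 / 2 ≤ τ) (h2 : τ ≤ 3 / 4) (hθ0 : 1 / 8 ≤ ((X : ℝ) + τ) / 2 ^ m)
    (hθ1 : ((X : ℝ) + τ) / 2 ^ m ≤ 7 / 8) :
    ((m : ℝ) - 1) / 20 - 37 / 4 -
      8 * π * (garb q s m X / 2 + (m : ℝ) ^ 2 * ((q : ℝ) ^ s)⁻¹ * (2 * (m + 1))) ≤
    4 / (gn m r : ℝ) * ∑ Y ∈ range (2 ^ m), ∑ i ∈ range r,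
      (Complex.exp (-(2 * π * Complex.I * ((freq q s m X : ℕ) : ℂ) * shift q s m Y)) *
        GG (gn m r) (((X : ℝ) + τ) / 2 ^ m - gp m r Y i)).im := by
  have hpi := Real.pi_pos
  have hg : (0 : ℝ) < gn m r := by exact_mod_cast gn_pos hr
  have hr' : (0 : ℝ) < r := by exact_mod_cast hr
  have hp : (0 : ℝ) < 2 ^ m := by positivity
  have hκ : 0 ≤ (m : ℝ) ^ 2 * ((q : ℝ) ^ s)⁻¹ := by positivity
  -- lower bound of the term of the cell Y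
  have hoth : ∀ Y ∈ (range (2 ^ m)).erase X,
      (r : ℝ) * (2 ^ m * (1 / 10) * (1 / (|(X : ℝ) - Y| + 1)) - 21 / 4 * 1 -
        8 * π * 2 ^ m * (((∑ i ∈ range m, wt q s i X Y) / |(X : ℝ) - Y|) / 2 +
        (m : ℝ) ^ 2 * ((q : ℝ) ^ s)⁻¹ * (1 / |(X : ℝ) - Y|))) ≤
      ∑ i ∈ range r, (Complex.exp (-(2 * π * Complex.I * ((freq q s m X : ℕ) : ℂ) * shift q s m Y)) *
        GG (gn m r) (((X : ℝ) + τ) / 2 ^ m - gp m r Y i)).im := by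
    intro Y hY
    have hY1 := mem_erase.mp hY
    have hYn : Y < 2 ^ m := mem_range.mp hY1.2
    obtain ⟨e, he, hph⟩ := phase_eq hq hq2 hs hX hYn
    rw [hph]
    have h3 : ∀ i ∈ range r, (2 ^ m * (1 / 10) * (1 / (|(X : ℝ) - Y| + 1)) - 21 / 4 * 1 -
        8 * π * 2 ^ m * (((∑ i ∈ range m, wt q s i X Y) / |(X : ℝ) - Y|) / 2 +
        (m : ℝ) ^ 2 * ((q : ℝ) ^ s)⁻¹ * (1 / |(X : ℝ) - Y|))) ≤
        ((((if Y < X then (-1 : ℝ) else 1) : ℝ) : ℂ) * Complex.exp (-(2 * π * Complex.I * e)) *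
      GG (gn m r) (((X : ℝ) + τ) / 2 ^ m - gp m r Y i)).im := by
      intro i hi
      refine le_trans ?_ (term_other hr hbig hX hYn (Ne.symm hY1.1) (mem_range.mp hi) h1 h2 hθ0 hθ1 e)
      have hd : 0 ≤ 1 / |(X : ℝ) - Y| := by positivity
      have h4 : |e| * (1 / |(X : ℝ) - Y|) ≤ (((∑ i ∈ range m, wt q s i X Y) / |(X : ℝ) - Y|) / 2 +
        (m : ℝ) ^ 2 * ((q : ℝ) ^ s)⁻¹ * (1 / |(X : ℝ) - Y|)) := by
        calc |e| * (1 / |(X : ℝ) - Y|) ≤ ((∑ i ∈ range m, wt q s i X Y) / 2 +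
              (m : ℝ) ^ 2 * ((q : ℝ) ^ s)⁻¹) * (1 / |(X : ℝ) - Y|) := mul_le_mul_of_nonneg_right he hd
          _ = _ := by ring
      have h5 : 8 * π * 2 ^ m * (|e| * (1 / |(X : ℝ) - Y|)) ≤ 8 * π * 2 ^ m *
        (((∑ i ∈ range m, wt q s i X Y) / |(X : ℝ) - Y|) / 2 +
        (m : ℝ) ^ 2 * ((q : ℝ) ^ s)⁻¹ * (1 / |(X : ℝ) - Y|)) :=
        mul_le_mul_of_nonneg_left h4 (by positivity)
      linarith
    have h4 := sum_le_sum h3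
    rw [sum_const, card_range, nsmul_eq_mul] at h4
    exact h4
  have hown : (r : ℝ) * (-(4 * 2 ^ m)) ≤
      ∑ i ∈ range r, (Complex.exp (-(2 * π * Complex.I * ((freq q s m X : ℕ) : ℂ) * shift q s m X)) *
        GG (gn m r) (((X : ℝ) + τ) / 2 ^ m - gp m r X i)).im := by
    have h3 : ∀ i ∈ range r, -(4 * 2 ^ m : ℝ) ≤
        (Complex.exp (-(2 * π * Complex.I * ((freq q s m X : ℕ) : ℂ) * shift q s m X)) *
        GG (gn m r) (((X : ℝ) + τ) / 2 ^ m - gp m r X i)).im := by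
      intro i hi
      refine term_own hr hbig hX (mem_range.mp hi) h1 h2 hθ0 hθ1 ?_
      have : -(2 * π * Complex.I * ((freq q s m X : ℕ) : ℂ) * shift q s m X) =
          -(2 * π * Complex.I * (((freq q s m X : ℕ) * shift q s m X : ℝ) : ℂ)) := by
        push_cast; ring
      rw [this]
      exact norm_exp_I _
    have h4 := sum_le_sum h3
    rw [sum_const, card_range, nsmul_eq_mul] at h4
    exact h4
  rw [← sum_erase_add _ _ (mem_range.mpr hX)]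
  have h5 := add_le_add (sum_le_sum hoth) hown
  rw [← mul_sum, sum_sub_distrib, sum_sub_distrib, ← mul_sum, ← mul_sum, ← mul_sum] at h5
  have h6 := main_sum_lower hm hX
  have h7 := garb_aux (q := q) (s := s) hX
  have h8 : (∑ Y ∈ (range (2 ^ m)).erase X, (1 : ℝ)) ≤ 2 ^ m := card_erase_le
  set S1 := ∑ Y ∈ (range (2 ^ m)).erase X, (1 : ℝ) / (|(X : ℝ) - Y| + 1) with hS1
  set S2 := ∑ Y ∈ (range (2 ^ m)).erase X, (1 : ℝ) with hS2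
  set S3 := ∑ Y ∈ (range (2 ^ m)).erase X, (((∑ i ∈ range m, wt q s i X Y) / |(X : ℝ) - Y|) / 2 +
        (m : ℝ) ^ 2 * ((q : ℝ) ^ s)⁻¹ * (1 / |(X : ℝ) - Y|)) with hS3
  set Gb := garb q s m X / 2 + (m : ℝ) ^ 2 * ((q : ℝ) ^ s)⁻¹ * (2 * (m + 1)) with hGb
  refine le_trans ?_ (mul_le_mul_of_nonneg_left h5 (by positivity))
  have e : (gn m r : ℝ) = 4 * r * 2 ^ m := by unfold gn; push_cast; ring
  have e2 : 4 / (gn m r : ℝ) * (r * (2 ^ m * (1 / 10) * S1 - 21 / 4 * S2 - 8 * π * 2 ^ m * S3) +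
      r * (-(4 * 2 ^ m))) = (1 / 10) * S1 - 21 / 4 * (S2 / 2 ^ m) - 8 * π * S3 - 4 := by
    rw [e]
    field_simp
    ring
  rw [e2]
  have h9 : S2 / 2 ^ m ≤ 1 := by rw [div_le_one hp]; exact h8
  have h10 : 8 * π * S3 ≤ 8 * π * Gb := mul_le_mul_of_nonneg_left h7 (by positivity)
  linarith

end Vale.Agent.P091.H788
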