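import Mathlib.MeasureTheory.Function.Floor
import Vale.Agent.P091.H788.ImLower

set_option linter.all false

/-! The basic factor lemma. -/

namespace Vale.Agent.P091.H788

open Finset Real MeasureTheory AddCircle Vale.Agent.P091 Vale.Agent.P091.H409

/-- the parameter of the digit system -/
def AA : ℕ := 38400

/-- the block length -/
def ss (m : ℕ) : ℕ := AA * (m + 2)

lemma eta_small {A m : ℕ} (hA4 : 4 ≤ A) (hm : 1 ≤ m) :
    (m : ℝ) ^ 2 * ((A : ℝ) ^ (A * (m + 2)))⁻¹ * (2 * (m + 1)) ≤ 1 := by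
  set s := A * (m + 2) with hs
  have hm1 : (1 : ℝ) ≤ m := by exact_mod_cast hm
  have hpow : (m : ℝ) + 1 ≤ 2 ^ m := by exact_mod_cast Nat.lt_two_pow_self
  have h2m : (0 : ℝ) < 2 ^ m := by positivity
  have hAs : (2 : ℝ) ^ (4 * m + 8) ≤ (A : ℝ) ^ s := by
    calc (2 : ℝ) ^ (4 * m + 8) ≤ 2 ^ s := by
          apply pow_le_pow_right₀ (by norm_num)
          rw [hs]; nlinarith only [hA4]
      _ ≤ (A : ℝ) ^ s := by
          apply pow_le_pow_left₀ (by norm_num)
          exact_mod_cast (by omega : 2 ≤ A)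
  have hAs0 : (0 : ℝ) < (A : ℝ) ^ s := lt_of_lt_of_le (by positivity) hAs
  have hsplit : (2 : ℝ) ^ (4 * m + 8) = (2 ^ m) ^ 4 * 256 := by
    rw [pow_add, mul_comm 4 m, pow_mul]; norm_num
  have : (m : ℝ) ^ 2 * ((A : ℝ) ^ s)⁻¹ * (2 * (m + 1)) = (m : ℝ) ^ 2 * (2 * (m + 1)) / (A : ℝ) ^ s := by
    rw [div_eq_mul_inv]; ring
  rw [this, div_le_one hAs0]
  have h4 : (m : ℝ) ≤ 2 ^ m := by linarith only [hpow]
  have h5 : (1 : ℝ) ≤ 2 ^ m := by linarith only [hpow, hm1]
  calc (m : ℝ) ^ 2 * (2 * (m + 1)) ≤ (2 ^ m) ^ 2 * (2 * 2 ^ m) := by gcongr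
    _ = 2 * (2 ^ m) ^ 3 * 1 := by ring
    _ ≤ 256 * (2 ^ m) ^ 3 * 2 ^ m := by gcongr; norm_num
    _ = (2 ^ m) ^ 4 * 256 := by ring
    _ ≤ (A : ℝ) ^ s := by rw [← hsplit]; exact hAs

/-- the good cells -/
noncomputable def good (m : ℕ) : Finset ℕ :=
  (Ico (2 ^ (m - 3)) (7 * 2 ^ (m - 3))) \ badset AA m (1 / 4)

lemma good_spec {m X : ℕ} (hm : 3 ≤ m) (hX : X ∈ good m) :
    X < 2 ^ m ∧ (1 / 8 : ℝ) ≤ X / 2 ^ m ∧ ((X : ℝ) + 1) / 2 ^ m ≤ 7 / 8 ∧
      garb AA (AA * (m + 2)) m X ≤ m / 800 := by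
  unfold good at hX
  rw [mem_sdiff, mem_Ico] at hX
  obtain ⟨⟨h1, h2⟩, h3⟩ := hX
  obtain ⟨k, rfl⟩ : ∃ k, m = k + 3 := ⟨m - 3, by omega⟩
  rw [Nat.add_sub_cancel] at h1 h2
  have e : 2 ^ (k + 3) = 8 * 2 ^ k := by rw [pow_add]; ring
  have er : (2 : ℝ) ^ (k + 3) = 8 * 2 ^ k := by rw [pow_add]; ring
  have hlt : X < 2 ^ (k + 3) := by omega
  have h1' : (2 : ℝ) ^ k ≤ X := by exact_mod_cast h1
  have h2' : (X : ℝ) + 1 ≤ 7 * 2 ^ k := by exact_mod_cast h2
  have hp : (0 : ℝ) < 2 ^ k := by positivity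
  refine ⟨hlt, ?_, ?_, ?_⟩
  · rw [er, div_le_div_iff₀ (by norm_num) (by positivity)]
    linarith
  · rw [er, div_le_div_iff₀ (by positivity) (by norm_num)]
    linarith
  · by_contra hc
    push Not at hc
    apply h3
    unfold badset
    rw [mem_filter]
    refine ⟨mem_range.mpr hlt, ?_⟩
    refine lt_of_le_of_lt (le_of_eq ?_) hc
    push_cast
    ring

lemma good_card {m : ℕ} (hm : 3 ≤ m) : (1 / 2 : ℝ) * 2 ^ m ≤ (good m).card := by
  have h1 : ((badset AA m (1 / 4)).card : ℝ) ≤ 1 / 4 * (2 ^ m : ℕ) := by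
    apply badset_card (by unfold AA; norm_num) (by omega) (by norm_num)
    unfold AA
    norm_num
  have h2 : (Ico (2 ^ (m - 3)) (7 * 2 ^ (m - 3))).card ≤ (good m).card + (badset AA m (1 / 4)).card := by
    unfold good
    exact (Finset.card_le_card_sdiff_add_card)
  rw [Nat.card_Ico] at h2
  obtain ⟨k, rfl⟩ : ∃ k, m = k + 3 := ⟨m - 3, by omega⟩
  rw [Nat.add_sub_cancel] at h2
  have er : (2 : ℝ) ^ (k + 3) = 8 * 2 ^ k := by rw [pow_add]; ring
  have h3 : 6 * 2 ^ k ≤ (good (k + 3)).card + (badset AA (k + 3) (1 / 4)).card := by omega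
  have h4 : (6 : ℝ) * 2 ^ k ≤ (good (k + 3)).card + (badset AA (k + 3) (1 / 4)).card := by exact_mod_cast h3
  push_cast at h1
  rw [er] at h1 ⊢
  linarith

section
variable {T : ℝ} [hT : Fact (0 < T)]

/-- the frequency choice -/
noncomputable def NN (m : ℕ) (x : AddCircle T) : ℤ :=
  (freq AA (AA * (m + 2)) m ⌊(2 : ℝ) ^ m * rep x⌋₊ : ℤ)

lemma measurable_NN (m : ℕ) : Measurable (NN m : AddCircle T → ℤ) := by
  have h1 : Measurable (fun x : AddCircle T => ⌊(2 : ℝ) ^ m * rep x⌋₊) :=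
    Nat.measurable_floor.comp (measurable_rep.const_mul _)
  have h2 : Measurable (fun k : ℕ => ((freq AA (AA * (m + 2)) m k : ℕ) : ℤ)) := measurable_from_top
  exact h2.comp h1

lemma freq_bigK (m X : ℕ) : 2 * freq AA (AA * (m + 2)) m X ≤ bigK AA m := by
  have h1 := freq_le (q := AA) (s := AA * (m + 2)) (m := m) (X := X) (by unfold AA; norm_num)
    (by unfold AA; positivity)
  set F := freq AA (AA * (m + 2)) m X with hF
  have h2 : bigK AA m = (2 ^ m * (m * AA ^ (2 * (AA * (m + 2)) * m + AA * (m + 2)) + 1) + 1) ^ 2 := rfl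
  rw [h2]
  generalize m * AA ^ (2 * (AA * (m + 2)) * m + AA * (m + 2)) = Q at h1 ⊢
  have h3 : 1 ≤ 2 ^ m := Nat.one_le_two_pow
  nlinarith [Nat.mul_le_mul h3 (le_refl (Q + 1))]

lemma NN_le (m : ℕ) (x : AddCircle T) : |NN m x| ≤ (bigK AA m : ℤ) := by
  unfold NN
  rw [abs_of_nonneg (by positivity)]
  have := freq_bigK m ⌊(2 : ℝ) ^ m * rep x⌋₊
  exact_mod_cast (by omega : freq AA (AA * (m + 2)) m ⌊(2 : ℝ) ^ m * rep x⌋₊ ≤ bigK AA m)

lemma floor_cell {m X : ℕ} {τ : ℝ} (h0 : 0 ≤ τ) (h1 : τ < 1) :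
    ⌊(2 : ℝ) ^ m * (((X : ℝ) + τ) / ((2 ^ m : ℕ) : ℝ))⌋₊ = X := by
  have : (2 : ℝ) ^ m * (((X : ℝ) + τ) / ((2 ^ m : ℕ) : ℝ)) = X + τ := by
    push_cast
    field_simp
  rw [this, Nat.floor_eq_iff (by positivity)]
  constructor <;> linarith

lemma cast_exp_fc (J : ℕ) (p : ℝ) (N : ℕ) :
    fc J p (N : ℤ) = ((1 - (N : ℝ) / J : ℝ) : ℂ) * Complex.exp (-(2 * π * Complex.I * (N : ℂ) * p)) := by
  unfold fc
  have : |(((N : ℕ) : ℤ) : ℝ)| = (N : ℝ) := by
    push_cast
    exact abs_of_nonneg (by positivity)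
  rw [this]
  push_cast
  rfl

/-- lower bound on the good set -/
lemma good_lower {m r : ℕ} (hm : 3000 ≤ m) (hr : 0 < r) (hbig : 8 * (2 ^ m : ℝ) ^ 2 ≤ gn m r)
    {x : AddCircle T} (hx : rep x ∈ arcs (2 ^ m) (good m) (1 / 2) (3 / 4)) :
    1 / 100 * (m : ℝ) ≤
      (ev (trunc 0 (rho m r (bigK AA m) (shift AA (AA * (m + 2)) m) (NN m x))) x).im := by
  obtain ⟨X, hX, τ, h1, h2, hxe⟩ := mem_arcs (by positivity) hx
  obtain ⟨hXm, hX1, hX2, hgarb⟩ := good_spec (by omega) hX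
  obtain ⟨t, hxt, htr, -, -⟩ := rep_spec x
  have hp : (0 : ℝ) < 2 ^ m := by positivity
  have hNN : NN m x = ((freq AA (AA * (m + 2)) m X : ℕ) : ℤ) := by
    unfold NN
    rw [hxe, floor_cell (by linarith) (by linarith)]
  have hθ : t / T = ((X : ℝ) + τ) / 2 ^ m := by
    rw [htr, hxe]
    push_cast
    rfl
  have hθ0 : 1 / 8 ≤ ((X : ℝ) + τ) / 2 ^ m := by
    refine hX1.trans ?_
    gcongr
    linarith
  have hθ1 : ((X : ℝ) + τ) / 2 ^ m ≤ 7 / 8 := by
    refine le_trans ?_ hX2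
    gcongr
    linarith
  have hkey := im_lower (q := AA) (s := AA * (m + 2)) (by unfold AA; decide) (by unfold AA; norm_num)
    (by unfold AA; positivity) (by omega) hr hbig hXm h1 h2 hθ0 hθ1
  have hFJ := freq_bigK m X
  set F := freq AA (AA * (m + 2)) m X with hF
  set J := bigK AA m with hJ
  have hJ0 : (0 : ℝ) < J := by exact_mod_cast bigK_pos AA m
  have hk : |((F : ℕ) : ℤ)| ≤ (J : ℤ) := by
    rw [abs_of_nonneg (by positivity)]
    exact_mod_cast (by omega : F ≤ J)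
  rw [hNN, hxt, ev_trunc_rho hk, hθ]
  have e1 : (4 / (gn m r : ℂ)) * ∑ Y ∈ range (2 ^ m), ∑ i ∈ range r,
      fc J (shift AA (AA * (m + 2)) m Y) (F : ℤ) * GG (gn m r) (((X : ℝ) + τ) / 2 ^ m - gp m r Y i) =
      (((1 - (F : ℝ) / J) * (4 / (gn m r : ℝ)) : ℝ) : ℂ) * ∑ Y ∈ range (2 ^ m), ∑ i ∈ range r,
      (Complex.exp (-(2 * π * Complex.I * ((F : ℕ) : ℂ) * shift AA (AA * (m + 2)) m Y)) *
        GG (gn m r) (((X : ℝ) + τ) / 2 ^ m - gp m r Y i)) := by
    simp_rw [mul_sum, cast_exp_fc]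
    refine sum_congr rfl fun Y _ => sum_congr rfl fun i _ => ?_
    push_cast
    ring
  rw [e1, Complex.im_ofReal_mul, Complex.im_sum]
  simp_rw [Complex.im_sum]
  rw [mul_assoc]
  have hF2 : 1 / 2 ≤ 1 - (F : ℝ) / J := by
    have : (F : ℝ) / J ≤ 1 / 2 := by
      rw [div_le_div_iff₀ hJ0 (by norm_num)]
      have : (2 * F : ℝ) ≤ J := by exact_mod_cast hFJ
      linarith
    linarith
  have heta := eta_small (A := AA) (m := m) (by unfold AA; norm_num) (by omega)
  have hm' : (3000 : ℝ) ≤ m := by exact_mod_cast hm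
  have hpi : π ≤ 3.15 := Real.pi_lt_d2.le
  have hpi0 := Real.pi_pos
  have h6 : 8 * π * (garb AA (AA * (m + 2)) m X / 2 +
      (m : ℝ) ^ 2 * ((AA : ℝ) ^ (AA * (m + 2)))⁻¹ * (2 * (m + 1))) ≤ 8 * 3.15 * (m / 1600 + 1) := by
    have h7 : garb AA (AA * (m + 2)) m X / 2 +
      (m : ℝ) ^ 2 * ((AA : ℝ) ^ (AA * (m + 2)))⁻¹ * (2 * (m + 1)) ≤ m / 1600 + 1 := by linarith
    have h8 : (0 : ℝ) ≤ m / 1600 + 1 := by positivity
    calc _ ≤ 8 * π * (m / 1600 + 1) := mul_le_mul_of_nonneg_left h7 (by positivity)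
      _ ≤ _ := by gcongr
  have h7 : (m : ℝ) / 50 ≤ 4 / (gn m r : ℝ) * ∑ Y ∈ range (2 ^ m), ∑ i ∈ range r,
      (Complex.exp (-(2 * π * Complex.I * ((F : ℕ) : ℂ) * shift AA (AA * (m + 2)) m Y)) *
        GG (gn m r) (((X : ℝ) + τ) / 2 ^ m - gp m r Y i)).im := by
    refine le_trans ?_ hkey
    linarith
  have h8 : (0 : ℝ) ≤ m / 50 := by positivity
  calc 1 / 100 * (m : ℝ) = 1 / 2 * (m / 50) := by ring
    _ ≤ _ := mul_le_mul hF2 h7 h8 (by linarith)

end

theorem basicFactor (T : ℝ) [hT : Fact (0 < T)] : BasicFactor T := by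
  have hlogA : 0 < Real.log AA := Real.log_pos (by unfold AA; norm_num)
  refine ⟨1 / 100, by norm_num, 24 * AA * Real.log AA + 2, by positivity, 3000, fun m hm => ?_⟩
  have hJ0 : (0 : ℝ) < bigK AA m := by exact_mod_cast bigK_pos AA m
  have hm' : (3000 : ℝ) ≤ m := by exact_mod_cast hm
  have hp : (0 : ℝ) < 2 ^ m := by positivity
  have hKsize : 4 * (bigK AA m : ℝ) ≤ Real.exp ((24 * AA * Real.log AA + 2) * (m : ℝ) ^ 2) := by
    have h1 := bigK_size (A := AA) (m := m) (by unfold AA; norm_num) (by omega)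
    have h2 : (4 : ℝ) ≤ Real.exp (2 * (m : ℝ) ^ 2) := by
      have := Real.add_one_le_exp (2 * (m : ℝ) ^ 2)
      nlinarith
    calc 4 * (bigK AA m : ℝ) ≤ Real.exp (2 * (m : ℝ) ^ 2) * Real.exp (24 * AA * Real.log AA * m ^ 2) := by
          gcongr
      _ = _ := by
          rw [← Real.exp_add]
          congr 1
          ring
  refine ⟨bigK AA m, NN m, rep ⁻¹' arcs (2 ^ m) (good m) (1 / 2) (3 / 4), ?_, measurable_NN m, NN_le m,
    measurable_rep (measurable_arcs _ _ _ _), ?_, fun ε τ hε hτ => ?_⟩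
  · linarith
  · have hgood : good m ⊆ range (2 ^ m) := by
      intro X hX
      exact mem_range.mpr (good_spec (by omega) hX).1
    rw [haar_rep_preimage (measurable_arcs _ _ _ _) (arcs_subset (by positivity) hgood (by norm_num) (by norm_num)),
      volume_arcs (by positivity) (by norm_num) (by norm_num), ENNReal.toReal_ofReal (by positivity)]
    have h1 := good_card (m := m) (by omega)
    push_cast
    have h2 : ((good m).card : ℝ) * ((3 / 4 - 1 / 2) / 2 ^ m) = (good m).card / 2 ^ m / 4 := by ring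
    rw [h2]
    have h3 : 1 / 2 ≤ ((good m).card : ℝ) / 2 ^ m := by rw [le_div_iff₀ hp]; exact h1
    linarith
  · -- parameters
    set η : ℝ := min (ε / 8) (1 / 16) with hη
    have hη0 : 0 < η := lt_min (by positivity) (by norm_num)
    have hη1 : η ≤ ε / 8 := min_le_left _ _
    have hη2 : η ≤ 1 / 16 := min_le_right _ _
    obtain ⟨r, hr1⟩ := exists_nat_ge (max (max (8 * (2 ^ m : ℝ) ^ 2) (4 * (2 ^ m) ^ 2 / τ))
      (max ((2 ^ m) ^ 2 / (4 * η ^ 2) / ε) 1))
    have hr1' : 1 ≤ (r : ℝ) := (le_max_right _ _).trans ((le_max_right _ _).trans hr1)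
    have hr : 0 < r := by
      have : (0 : ℝ) < r := by linarith
      exact_mod_cast this
    have hrg : (r : ℝ) ≤ gn m r := by
      unfold gn
      push_cast
      have : (1 : ℝ) ≤ 2 ^ m := one_le_pow₀ (by norm_num)
      nlinarith
    have hg : (0 : ℝ) < gn m r := by linarith
    have hbig : 8 * (2 ^ m : ℝ) ^ 2 ≤ gn m r :=
      ((le_max_left _ _).trans ((le_max_left _ _).trans hr1)).trans hrg
    have hgτ : 4 * (2 ^ m) ^ 2 / τ ≤ gn m r :=
      ((le_max_right _ _).trans ((le_max_left _ _).trans hr1)).trans hrg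
    have hgε : (2 ^ m) ^ 2 / (4 * η ^ 2) / ε ≤ gn m r :=
      ((le_max_left _ _).trans ((le_max_right _ _).trans hr1)).trans hrg
    refine ⟨rho m r (bigK AA m) (shift AA (AA * (m + 2)) m),
      rep ⁻¹' arcs (2 ^ m) (range (2 ^ m)) η (1 / 4 - η), ?_, ?_, ?_, ?_, ?_, ?_, ?_, ?_, ?_, ?_⟩
    · intro k hk
      exact cutF_large _ _ hk
    · intro x y
      obtain ⟨t, rfl⟩ := QuotientAddGroup.mk_surjective x
      obtain ⟨u, rfl⟩ := QuotientAddGroup.mk_surjective y
      have h2 := ev2_rho (T := T) (m := m) (r := r) (J := bigK AA m) (sh := shift AA (AA * (m + 2)) m) t u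
      have h3 : (QuotientAddGroup.mk t : AddCircle T) = ((t : ℝ) : AddCircle T) := rfl
      have h4 : (QuotientAddGroup.mk u : AddCircle T) = ((u : ℝ) : AddCircle T) := rfl
      rw [h3, h4, h2, Complex.ofReal_im, Complex.ofReal_re]
      refine ⟨rfl, ?_, ?_⟩
      · apply mul_nonneg (by positivity)
        exact sum_nonneg fun Y _ => sum_nonneg fun i _ =>
          mul_nonneg (fk_full_nonneg _ (gn_pos hr) _) (fk_full_nonneg _ (bigK_pos _ _) _)
      · refine le_trans ?_ hKsize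
        have h5 : ∑ Y ∈ range (2 ^ m), ∑ i ∈ range r, fk (gn m r) (gn m r) (t / T - gp m r Y i) *
            fk (bigK AA m) (bigK AA m) (u / T - shift AA (AA * (m + 2)) m Y) ≤
            (∑ Y ∈ range (2 ^ m), ∑ i ∈ range r, fk (gn m r) (gn m r) (t / T - gp m r Y i)) * bigK AA m := by
          simp_rw [sum_mul]
          refine sum_le_sum fun Y _ => sum_le_sum fun i _ => ?_
          exact mul_le_mul_of_nonneg_left (fk_full_le _ (bigK_pos _ _) _) (fk_full_nonneg _ (gn_pos hr) _)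
        have h6 := Th_le_one (m := m) hr (t / T)
        unfold Th at h6
        rw [div_le_one hg] at h6
        calc _ ≤ 4 / (gn m r : ℝ) * (gn m r * bigK AA m) := by
              apply mul_le_mul_of_nonneg_left _ (by positivity)
              refine h5.trans ?_
              gcongr
          _ = _ := by field_simp
    · exact rho_zero_zero hr
    · intro x
      obtain ⟨t, rfl⟩ := QuotientAddGroup.mk_surjective x
      have h3 : (QuotientAddGroup.mk t : AddCircle T) = ((t : ℝ) : AddCircle T) := rfl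
      rw [h3, ev_rho_zero, Complex.ofReal_im, Complex.ofReal_re]
      have h4 := Th_nonneg (m := m) hr (t / T)
      have h5 := Th_le_one (m := m) hr (t / T)
      refine ⟨rfl, by linarith, by linarith⟩
    · exact measurable_rep (measurable_arcs _ _ _ _)
    · rw [haar_rep_preimage (measurable_arcs _ _ _ _) (arcs_subset (by positivity) (subset_refl _) hη0 (by linarith)),
        volume_arcs (by positivity) (by linarith) (by linarith), ENNReal.toReal_ofReal (by
          rw [card_range]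
          apply mul_nonneg (by positivity)
          apply div_nonneg (by linarith) (by positivity)), card_range]
      have e : (((2 ^ m : ℕ) : ℝ)) * ((1 / 4 - η - η) / ((2 ^ m : ℕ) : ℝ)) = 1 / 4 - η - η := by
        push_cast
        field_simp
      rw [e]
      linarith
    · rw [haar_rep_preimage (measurable_arcs _ _ _ _) (arcs_subset (by positivity) (subset_refl _) hη0 (by linarith)),
        volume_arcs (by positivity) (by linarith) (by linarith), ENNReal.toReal_ofReal (by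
          rw [card_range]
          apply mul_nonneg (by positivity)
          apply div_nonneg (by linarith) (by positivity)), card_range]
      have e : (((2 ^ m : ℕ) : ℝ)) * ((1 / 4 - η - η) / ((2 ^ m : ℕ) : ℝ)) = 1 / 4 - η - η := by
        push_cast
        field_simp
      rw [e]
      linarith
    · rw [Set.disjoint_left]
      intro x hx1 hx2
      obtain ⟨X, hX, τ1, h1, h2, hxe⟩ := mem_arcs (by positivity) hx1
      obtain ⟨X', hX', τ2, h3, h4, hxe'⟩ := mem_arcs (by positivity) hx2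
      have h5 := floor_cell (m := m) (X := X) (τ := τ1) (by linarith) (by linarith)
      have h6 := floor_cell (m := m) (X := X') (τ := τ2) (by linarith) (by linarith)
      rw [← hxe] at h5
      rw [← hxe'] at h6
      have h7 : X = X' := h5.symm.trans h6
      rw [hxe, h7] at hxe'
      have h8 : ((X' : ℝ) + τ1) = (X' : ℝ) + τ2 := by
        field_simp at hxe'
        linarith
      linarith
    · intro x hx
      obtain ⟨X, hX, τ1, h1, h2, hxe⟩ := mem_arcs (by positivity) hx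
      obtain ⟨t, hxt, htr, -, -⟩ := rep_spec x
      have hθ : t / T = ((X : ℝ) + τ1) / 2 ^ m := by
        rw [htr, hxe]
        push_cast
        rfl
      rw [hxt, ev_rho_zero, Complex.ofReal_re, hθ]
      have h3 := Th_on (m := m) hr (mem_range.mp hX) hη0 h1 h2
      have h4 : (2 ^ m : ℝ) ^ 2 / (4 * η ^ 2) / gn m r ≤ ε := by
        rw [div_le_iff₀ hg]
        rw [div_le_iff₀ hε] at hgε
        linarith
      linarith
    · intro x hx
      refine ⟨?_, good_lower hm hr hbig hx⟩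
      obtain ⟨X, hX, τ1, h1, h2, hxe⟩ := mem_arcs (by positivity) hx
      obtain ⟨t, hxt, htr, -, -⟩ := rep_spec x
      have hθ : t / T = ((X : ℝ) + τ1) / 2 ^ m := by
        rw [htr, hxe]
        push_cast
        rfl
      rw [hxt, ev_rho_zero, Complex.ofReal_re, hθ]
      have h3 := Th_off (m := m) hr (good_spec (by omega) hX).1 h1 h2
      refine h3.trans ?_
      rw [div_le_iff₀ hg]
      rw [div_le_iff₀ hτ] at hgτ
      linarith

end Vale.Agent.P091.H788
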