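import Vale.Agent.P091.H788.Kern

set_option linter.all false

/-! Arcs of the circle and lower bounds for the sine. -/

namespace Vale.Agent.P091.H788

open Finset Real MeasureTheory AddCircle Vale.Agent.P091 Vale.Agent.P091.H409

section
variable {T : ℝ} [hT : Fact (0 < T)]

/-- representative in `[0, 1)` -/
noncomputable def rep (x : AddCircle T) : ℝ := (AddCircle.equivIco T 0 x : ℝ) / T

lemma measurable_rep : Measurable (rep : AddCircle T → ℝ) := by
  unfold rep
  exact (measurable_subtype_coe.comp (AddCircle.measurableEquivIco T 0).measurable).div_const T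

lemma rep_spec (x : AddCircle T) :
    ∃ t : ℝ, x = (t : AddCircle T) ∧ t / T = rep x ∧ 0 ≤ rep x ∧ rep x < 1 := by
  have h := (AddCircle.equivIco T 0 x).2
  refine ⟨(AddCircle.equivIco T 0 x : ℝ), AddCircle.coe_equivIco.symm, rfl, ?_, ?_⟩
  · exact div_nonneg h.1 hT.out.le
  · unfold rep
    rw [div_lt_one hT.out]
    have h2 : (AddCircle.equivIco T 0 x : ℝ) < 0 + T := h.2
    linarith

lemma rep_coe (t : ℝ) : rep (t : AddCircle T) = Int.fract (t / T) := by
  unfold rep
  have := AddCircle.coe_equivIco_mk_apply T t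
  have h2 : (AddCircle.equivIco T 0 (t : AddCircle T) : ℝ) = Int.fract (t / T) * T := this
  rw [h2, mul_div_assoc, div_self hT.out.ne', mul_one]

lemma haar_rep_preimage {S : Set ℝ} (hS : MeasurableSet S) (h : S ⊆ Set.Ioo 0 1) :
    haarAddCircle (rep ⁻¹' S : Set (AddCircle T)) = volume S := by
  have hT0 : 0 < T := hT.out
  have hmeas : MeasurableSet (rep ⁻¹' S : Set (AddCircle T)) := measurable_rep hS
  have hset : (QuotientAddGroup.mk ⁻¹' (rep ⁻¹' S : Set (AddCircle T)) : Set ℝ) ∩ Set.Ioc 0 T =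
      (fun t => t * T⁻¹) ⁻¹' S := by
    ext t
    simp only [Set.mem_inter_iff, Set.mem_preimage, Set.mem_Ioc]
    have hr : rep (QuotientAddGroup.mk t : AddCircle T) = Int.fract (t / T) := rep_coe t
    rw [hr, ← div_eq_mul_inv]
    constructor
    · rintro ⟨h1, h2, h3⟩
      rcases lt_or_eq_of_le h3 with h4 | h4
      · have : Int.fract (t / T) = t / T := by
          rw [Int.fract_eq_self]
          exact ⟨by positivity, by rwa [div_lt_one hT0]⟩
        rwa [this] at h1
      · exfalso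
        rw [h4, div_self hT0.ne', Int.fract_one] at h1
        exact lt_irrefl _ (h h1).1
    · intro h1
      have h2 := h h1
      have h3 : Int.fract (t / T) = t / T := by
        rw [Int.fract_eq_self]
        exact ⟨h2.1.le, h2.2⟩
      refine ⟨by rwa [h3], ?_, ?_⟩
      · have := h2.1
        by_contra hc
        push Not at hc
        have : t / T ≤ 0 := div_nonpos_of_nonpos_of_nonneg hc hT0.le
        linarith
      · have := h2.2
        rw [div_lt_one hT0] at this
        exact this.le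
  have hvol : volume (rep ⁻¹' S : Set (AddCircle T)) = ENNReal.ofReal T * volume S := by
    rw [← (AddCircle.measurePreserving_mk T 0).measure_preimage hmeas.nullMeasurableSet,
      Measure.restrict_apply' measurableSet_Ioc, zero_add, hset,
      Real.volume_preimage_mul_right (by positivity), inv_inv, abs_of_pos hT0]
  rw [AddCircle.volume_eq_smul_haarAddCircle, Measure.smul_apply, smul_eq_mul] at hvol
  have hTne : ENNReal.ofReal T ≠ 0 := by simpa only [ne_eq, ENNReal.ofReal_eq_zero, not_le] using hT0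
  exact (ENNReal.mul_right_inj hTne ENNReal.ofReal_ne_top).mp hvol

end

/-- union of arcs -/
def arcs (n : ℕ) (G : Finset ℕ) (a b : ℝ) : Set ℝ :=
  ⋃ X ∈ G, Set.Icc (((X : ℝ) + a) / n) (((X : ℝ) + b) / n)

lemma measurable_arcs (n : ℕ) (G : Finset ℕ) (a b : ℝ) : MeasurableSet (arcs n G a b) :=
  Finset.measurableSet_biUnion _ fun _ _ => measurableSet_Icc

lemma mem_arcs {n : ℕ} (hn : 0 < n) {G : Finset ℕ} {a b θ : ℝ} (h : θ ∈ arcs n G a b) :
    ∃ X ∈ G, ∃ τ : ℝ, a ≤ τ ∧ τ ≤ b ∧ θ = ((X : ℝ) + τ) / n := by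
  have hn' : (0 : ℝ) < n := by exact_mod_cast hn
  unfold arcs at h
  simp only [Set.mem_iUnion] at h
  obtain ⟨X, hX, h1, h2⟩ := h
  rw [div_le_iff₀ hn'] at h1
  rw [le_div_iff₀ hn'] at h2
  refine ⟨X, hX, θ * n - X, by linarith, by linarith, ?_⟩
  field_simp
  ring

lemma arcs_subset {n : ℕ} (hn : 0 < n) {G : Finset ℕ} (hG : G ⊆ range n) {a b : ℝ} (ha : 0 < a)
    (hb : b < 1) : arcs n G a b ⊆ Set.Ioo 0 1 := by
  intro θ hθ
  obtain ⟨X, hX, τ, h1, h2, rfl⟩ := mem_arcs hn hθ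
  have hn' : (0 : ℝ) < n := by exact_mod_cast hn
  have hXn : (X : ℝ) + 1 ≤ n := by exact_mod_cast mem_range.mp (hG hX)
  have hX0 : (0 : ℝ) ≤ X := by positivity
  refine ⟨?_, ?_⟩
  · apply div_pos _ hn'
    linarith
  · rw [div_lt_one hn']
    linarith

lemma volume_arcs {n : ℕ} (hn : 0 < n) {G : Finset ℕ} {a b : ℝ} (hab : a ≤ b) (hb : b < a + 1) :
    volume (arcs n G a b) = ENNReal.ofReal (G.card * ((b - a) / n)) := by
  have hn' : (0 : ℝ) < n := by exact_mod_cast hn
  unfold arcs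
  rw [measure_biUnion_finset _ fun _ _ => measurableSet_Icc]
  · have : ∀ X ∈ G, volume (Set.Icc (((X : ℝ) + a) / n) (((X : ℝ) + b) / n)) =
        ENNReal.ofReal ((b - a) / n) := by
      intro X _
      rw [Real.volume_Icc]
      congr 1
      ring
    rw [sum_congr rfl this, sum_const, nsmul_eq_mul, ENNReal.ofReal_mul (by positivity),
      ENNReal.ofReal_natCast]
  · intro X _ Y _ hXY
    rw [Function.onFun, Set.disjoint_left]
    intro θ h1 h2
    obtain ⟨h1a, h1b⟩ := h1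
    obtain ⟨h2a, h2b⟩ := h2
    rw [div_le_iff₀ hn'] at h1a h2a
    rw [le_div_iff₀ hn'] at h1b h2b
    rcases Nat.lt_or_gt_of_ne hXY with h | h
    · have : (X : ℝ) + 1 ≤ Y := by exact_mod_cast h
      linarith
    · have : (Y : ℝ) + 1 ≤ X := by exact_mod_cast h
      linarith

lemma abs_sin_abs (v : ℝ) : |sin (π * v)| = |sin (π * |v|)| := by
  rcases abs_cases v with ⟨h, _⟩ | ⟨h, _⟩
  · rw [h]
  · rw [h, mul_neg, sin_neg, abs_neg]

lemma ct_neg (v : ℝ) : ct (-v) = - ct v := by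
  unfold ct
  rw [mul_neg, cos_neg, sin_neg, div_neg]

lemma abs_ct_abs (v : ℝ) : |ct v| = |ct (|v|)| := by
  rcases abs_cases v with ⟨h, _⟩ | ⟨h, _⟩
  · rw [h]
  · rw [h, ct_neg, abs_neg]

lemma dist_off {n : ℕ} {a : ℤ} {δ η : ℝ} (ha : |a| < n) (h1 : η ≤ |δ|)
    (h2 : |δ| ≤ 1 - η) : η ≤ |(a : ℝ) + δ| ∧ |(a : ℝ) + δ| ≤ n - η := by
  have ha' : |(a : ℝ)| + 1 ≤ n := by
    have : |a| + 1 ≤ (n : ℤ) := by omega
    exact_mod_cast this
  constructor
  · rcases lt_trichotomy a 0 with h | h | h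
    · have h' : (a : ℝ) ≤ -1 := by exact_mod_cast (by omega : a ≤ -1)
      have := le_abs_self δ
      have h3 := neg_abs_le ((a : ℝ) + δ)
      linarith
    · rw [h]; simpa using h1
    · have h' : (1 : ℝ) ≤ a := by exact_mod_cast (by omega : 1 ≤ a)
      have := neg_abs_le δ
      have h3 := le_abs_self ((a : ℝ) + δ)
      linarith
  · have := abs_add_le (a : ℝ) δ
    linarith

lemma sin_off {n : ℕ} (hn : 0 < n) {a : ℤ} {δ η : ℝ} (ha : |a| < n) (hη : 0 < η) (h1 : η ≤ |δ|)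
    (h2 : |δ| ≤ 1 - η) : 2 * (η / n) ≤ |sin (π * (((a : ℝ) + δ) / n))| := by
  have hn' : (0 : ℝ) < n := by exact_mod_cast hn
  obtain ⟨h3, h4⟩ := dist_off ha h1 h2
  set v := ((a : ℝ) + δ) / n with hv
  have hva : |v| = |(a : ℝ) + δ| / n := by rw [hv, abs_div, abs_of_pos hn']
  have h5 : η / n ≤ |v| := by rw [hva]; gcongr
  have h6 : |v| ≤ 1 - η / n := by
    rw [hva, div_le_iff₀ hn']
    have : (1 - η / n) * n = n - η := by field_simp
    rw [this]
    exact h4
  have hηn : 0 < η / n := by positivity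
  have h7 := sin_lower (lt_of_lt_of_le hηn h5) h6 hηn
  rw [min_eq_right h5] at h7
  rw [abs_sin_abs]
  exact h7.trans (le_abs_self _)

lemma fk_off {n K : ℕ} (hn : 0 < n) (hK : 0 < K) {a : ℤ} {δ η : ℝ} (ha : |a| < n) (hη : 0 < η)
    (h1 : η ≤ |δ|) (h2 : |δ| ≤ 1 - η) :
    fk K K (((a : ℝ) + δ) / n) ≤ (n : ℝ) ^ 2 / (4 * η ^ 2) / K := by
  have hn' : (0 : ℝ) < n := by exact_mod_cast hn
  have hK' : (0 : ℝ) < K := by exact_mod_cast hK
  have h3 := sin_off hn ha hη h1 h2
  have hηn : 0 < η / n := by positivity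
  have h4 : 0 < |sin (π * (((a : ℝ) + δ) / n))| := by linarith
  have h5 := fk_decay hK (abs_pos.mp h4)
  refine h5.trans ?_
  rw [← sq_abs (sin _)]
  have h6 : (2 * (η / n)) ^ 2 ≤ |sin (π * (((a : ℝ) + δ) / n))| ^ 2 := by gcongr
  calc 1 / (K * |sin (π * (((a : ℝ) + δ) / n))| ^ 2) ≤ 1 / (K * (2 * (η / n)) ^ 2) := by gcongr
    _ = _ := by
      field_simp
      ring

end Vale.Agent.P091.H788
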