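import Vale.Agent.P091.H788.Arcs

set_option linter.all false

/-! The two variable factor. -/

namespace Vale.Agent.P091.H788

open Finset Real MeasureTheory AddCircle Vale.Agent.P091 Vale.Agent.P091.H409

/-- grid points -/
noncomputable def gp (m r Y i : ℕ) : ℝ := ((Y : ℝ) + (i : ℝ) / (4 * r)) / 2 ^ m

/-- number of grid points -/
def gn (m r : ℕ) : ℕ := 4 * r * 2 ^ m

lemma gn_pos {m r : ℕ} (hr : 0 < r) : 0 < gn m r := by
  unfold gn
  positivity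

lemma grid_total {m r : ℕ} (hr : 0 < r) (t : ℝ) :
    ∑ Y ∈ range (2 ^ m), ∑ i ∈ range (4 * r), fk (gn m r) (gn m r) (t - gp m r Y i) = gn m r := by
  have h := grid_sum (gn_pos (m := m) hr) t
  have h2 : ∑ p ∈ range (gn m r), fk (gn m r) (gn m r) (t - p / (gn m r : ℝ)) =
      ∑ U ∈ range (2 ^ m), ∑ x ∈ range (4 * r), fk (gn m r) (gn m r) (t - ((4 * r * U + x : ℕ) : ℝ) / (gn m r : ℝ)) :=
    sum_range_mul_blocks (fun p => fk (gn m r) (gn m r) (t - (p : ℝ) / (gn m r : ℝ))) (4 * r) (2 ^ m)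
  rw [h2] at h
  rw [← h]
  refine sum_congr rfl fun Y _ => sum_congr rfl fun i _ => ?_
  congr 2
  unfold gp gn
  push_cast
  field_simp

/-- the mass of the kernels on the first quarters -/
noncomputable def Th (m r : ℕ) (t : ℝ) : ℝ :=
  (∑ Y ∈ range (2 ^ m), ∑ i ∈ range r, fk (gn m r) (gn m r) (t - gp m r Y i)) / gn m r

lemma Th_nonneg {m r : ℕ} (hr : 0 < r) (t : ℝ) : 0 ≤ Th m r t := by
  unfold Th
  apply div_nonneg _ (by positivity)
  exact sum_nonneg fun Y _ => sum_nonneg fun i _ => fk_full_nonneg _ (gn_pos hr) _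

lemma Th_split {m r : ℕ} (hr : 0 < r) (t : ℝ) :
    Th m r t + (∑ Y ∈ range (2 ^ m), ∑ i ∈ range (3 * r),
      fk (gn m r) (gn m r) (t - gp m r Y (r + i))) / gn m r = 1 := by
  have hg : (0 : ℝ) < gn m r := by exact_mod_cast gn_pos hr
  unfold Th
  rw [← add_div, ← sum_add_distrib, div_eq_one_iff_eq hg.ne']
  refine Eq.trans ?_ (grid_total hr t)
  refine sum_congr rfl fun Y _ => ?_
  have : 4 * r = r + 3 * r := by ring
  rw [this, sum_range_add]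

lemma Th_le_one {m r : ℕ} (hr : 0 < r) (t : ℝ) : Th m r t ≤ 1 := by
  have h := Th_split (m := m) hr t
  have h2 : 0 ≤ (∑ Y ∈ range (2 ^ m), ∑ i ∈ range (3 * r),
      fk (gn m r) (gn m r) (t - gp m r Y (r + i))) / gn m r := by
    apply div_nonneg _ (by positivity)
    exact sum_nonneg fun Y _ => sum_nonneg fun i _ => fk_full_nonneg _ (gn_pos hr) _
  linarith

/-- difference of a point of a cell and a grid point -/
lemma sub_gp {m r X Y i : ℕ} {τ : ℝ} :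
    ((X : ℝ) + τ) / 2 ^ m - gp m r Y i =
      ((((X : ℤ) - (Y : ℤ) : ℤ) : ℝ) + (τ - (i : ℝ) / (4 * r))) / ((2 ^ m : ℕ) : ℝ) := by
  unfold gp
  push_cast
  ring

lemma abs_cell {m X Y : ℕ} (hX : X < 2 ^ m) (hY : Y < 2 ^ m) :
    |(X : ℤ) - (Y : ℤ)| < ((2 ^ m : ℕ) : ℤ) := by
  rw [abs_lt]
  constructor <;> omega

/-- small off the first quarters -/
lemma Th_off {m r X : ℕ} (hr : 0 < r) (hX : X < 2 ^ m) {τ : ℝ} (h1 : 1 / 2 ≤ τ) (h2 : τ ≤ 3 / 4) :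
    4 * Th m r (((X : ℝ) + τ) / 2 ^ m) ≤ 4 * (2 ^ m) ^ 2 / gn m r := by
  have hg : (0 : ℝ) < gn m r := by exact_mod_cast gn_pos hr
  have hr' : (0 : ℝ) < r := by exact_mod_cast hr
  have h3 : ∀ Y ∈ range (2 ^ m), ∀ i ∈ range r,
      fk (gn m r) (gn m r) (((X : ℝ) + τ) / 2 ^ m - gp m r Y i) ≤
        ((2 ^ m : ℕ) : ℝ) ^ 2 / (4 * (1 / 4) ^ 2) / gn m r := by
    intro Y hY i hi
    rw [sub_gp]
    have hi' : (i : ℝ) / (4 * r) ≤ 1 / 4 := by
      rw [div_le_div_iff₀ (by positivity) (by norm_num)]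
      have : (i : ℝ) ≤ r := by exact_mod_cast (mem_range.mp hi).le
      linarith
    have hi0 : 0 ≤ (i : ℝ) / (4 * r) := by positivity
    have h4 : |τ - (i : ℝ) / (4 * r)| = τ - (i : ℝ) / (4 * r) := abs_of_nonneg (by linarith)
    apply fk_off (by positivity) (gn_pos hr) (abs_cell hX (mem_range.mp hY)) (by norm_num)
    · rw [h4]; linarith
    · rw [h4]; linarith
  have h4 : (∑ Y ∈ range (2 ^ m), ∑ i ∈ range r, fk (gn m r) (gn m r) (((X : ℝ) + τ) / 2 ^ m - gp m r Y i)) ≤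
      ∑ Y ∈ range (2 ^ m), ∑ i ∈ range r, ((2 ^ m : ℕ) : ℝ) ^ 2 / (4 * (1 / 4) ^ 2) / gn m r :=
    sum_le_sum fun Y hY => sum_le_sum fun i hi => h3 Y hY i hi
  simp only [sum_const, card_range, nsmul_eq_mul] at h4
  unfold Th
  rw [mul_div_assoc', div_le_div_iff_of_pos_right hg]
  refine (mul_le_mul_of_nonneg_left h4 (by norm_num)).trans (le_of_eq ?_)
  have : (gn m r : ℝ) = 4 * r * 2 ^ m := by unfold gn; push_cast; ring
  rw [this]
  push_cast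
  field_simp

/-- close to one well inside the first quarters -/
lemma Th_on {m r X : ℕ} (hr : 0 < r) (hX : X < 2 ^ m) {τ η : ℝ} (hη : 0 < η) (h1 : η ≤ τ)
    (h2 : τ ≤ 1 / 4 - η) :
    1 - (2 ^ m) ^ 2 / (4 * η ^ 2) / gn m r ≤ Th m r (((X : ℝ) + τ) / 2 ^ m) := by
  have hg : (0 : ℝ) < gn m r := by exact_mod_cast gn_pos hr
  have hr' : (0 : ℝ) < r := by exact_mod_cast hr
  have h3 : ∀ Y ∈ range (2 ^ m), ∀ i ∈ range (3 * r),
      fk (gn m r) (gn m r) (((X : ℝ) + τ) / 2 ^ m - gp m r Y (r + i)) ≤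
        ((2 ^ m : ℕ) : ℝ) ^ 2 / (4 * η ^ 2) / gn m r := by
    intro Y hY i hi
    rw [sub_gp]
    have hi1 : ((r + i : ℕ) : ℝ) / (4 * r) ≤ 1 := by
      rw [div_le_one (by positivity)]
      have : ((r + i : ℕ) : ℝ) ≤ ((4 * r : ℕ) : ℝ) := by
        exact_mod_cast (by have := mem_range.mp hi; omega : r + i ≤ 4 * r)
      push_cast at this ⊢
      linarith
    have hi0 : 1 / 4 ≤ ((r + i : ℕ) : ℝ) / (4 * r) := by
      rw [div_le_div_iff₀ (by norm_num) (by positivity)]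
      push_cast
      have : (0 : ℝ) ≤ i := by positivity
      linarith
    have h4 : |τ - ((r + i : ℕ) : ℝ) / (4 * r)| = ((r + i : ℕ) : ℝ) / (4 * r) - τ := by
      rw [abs_sub_comm]; exact abs_of_nonneg (by linarith)
    apply fk_off (by positivity) (gn_pos hr) (abs_cell hX (mem_range.mp hY)) hη
    · rw [h4]; linarith
    · rw [h4]; linarith
  have h4 : (∑ Y ∈ range (2 ^ m), ∑ i ∈ range (3 * r), fk (gn m r) (gn m r) (((X : ℝ) + τ) / 2 ^ m - gp m r Y (r + i))) ≤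
      ∑ Y ∈ range (2 ^ m), ∑ i ∈ range (3 * r), ((2 ^ m : ℕ) : ℝ) ^ 2 / (4 * η ^ 2) / gn m r :=
    sum_le_sum fun Y hY => sum_le_sum fun i hi => h3 Y hY i hi
  simp only [sum_const, card_range, nsmul_eq_mul] at h4
  have h5 := Th_split (m := m) hr (((X : ℝ) + τ) / 2 ^ m)
  have h6 : (∑ Y ∈ range (2 ^ m), ∑ i ∈ range (3 * r),
      fk (gn m r) (gn m r) (((X : ℝ) + τ) / 2 ^ m - gp m r Y (r + i))) / gn m r ≤
      (2 ^ m) ^ 2 / (4 * η ^ 2) / gn m r := by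
    rw [div_le_iff₀ hg]
    refine h4.trans ?_
    have e : (gn m r : ℝ) = 4 * r * 2 ^ m := by unfold gn; push_cast; ring
    have e2 : ((2 : ℝ) ^ m) ^ 2 / (4 * η ^ 2) / gn m r * gn m r = (2 ^ m) ^ 2 / (4 * η ^ 2) := by
      field_simp
    rw [e2, e]
    push_cast
    have e3 : (2 : ℝ) ^ m * (3 * r * ((2 ^ m) ^ 2 / (4 * η ^ 2) / (4 * r * 2 ^ m))) =
        3 / 4 * ((2 ^ m) ^ 2 / (4 * η ^ 2)) := by
      field_simp
    rw [e3]
    have : (0 : ℝ) ≤ (2 ^ m) ^ 2 / (4 * η ^ 2) := by positivity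
    linarith
  linarith

/-- the factor -/
noncomputable def rho (m r J : ℕ) (sh : ℕ → ℝ) : ℤ →₀ (ℤ →₀ ℂ) :=
  cutF J (fun k => cutF (gn m r) (fun j => (4 / (gn m r : ℂ)) *
    ∑ Y ∈ range (2 ^ m), ∑ i ∈ range r, fc J (sh Y) k * fc (gn m r) (gp m r Y i) j))

section
variable {T : ℝ} [hT : Fact (0 < T)]

lemma swap_sum {S : Finset ℤ} (c : ℂ) (a b : ℕ) (u : ℕ → ℂ) (w : ℕ → ℕ → ℤ → ℂ) (f : ℤ → ℂ) :
    ∑ j ∈ S, (c * ∑ Y ∈ range a, ∑ i ∈ range b, u Y * w Y i j) * f j =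
      c * ∑ Y ∈ range a, ∑ i ∈ range b, u Y * ∑ j ∈ S, w Y i j * f j := by
  simp_rw [mul_sum, sum_mul]
  rw [sum_comm]
  refine sum_congr rfl fun Y _ => ?_
  rw [sum_comm]
  refine sum_congr rfl fun i _ => ?_
  refine sum_congr rfl fun j _ => ?_
  ring

lemma ev_rho {m r J : ℕ} {sh : ℕ → ℝ} {k : ℤ} (hk : |k| ≤ (J : ℤ)) (t : ℝ) :
    ev (rho m r J sh k) (t : AddCircle T) = (4 / (gn m r : ℂ)) *
      ∑ Y ∈ range (2 ^ m), ∑ i ∈ range r, fc J (sh Y) k *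
        ((fk (gn m r) (gn m r) (t / T - gp m r Y i) : ℝ) : ℂ) := by
  unfold rho
  rw [cutF_small _ _ hk, ev_cutF, swap_sum (4 / (gn m r : ℂ)) (2 ^ m) r (fun Y => fc J (sh Y) k)
    (fun Y i j => fc (gn m r) (gp m r Y i) j)]
  congr 1
  refine sum_congr rfl fun Y _ => sum_congr rfl fun i _ => ?_
  rw [sum_fc]

lemma ev_trunc_rho {m r J : ℕ} {sh : ℕ → ℝ} {k : ℤ} (hk : |k| ≤ (J : ℤ)) (t : ℝ) :
    ev (trunc 0 (rho m r J sh k)) (t : AddCircle T) = (4 / (gn m r : ℂ)) *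
      ∑ Y ∈ range (2 ^ m), ∑ i ∈ range r, fc J (sh Y) k * GG (gn m r) (t / T - gp m r Y i) := by
  unfold rho
  rw [cutF_small _ _ hk, trunc_cutF, ev_cutF]
  have h1 : ∀ j ∈ Icc (-(gn m r : ℤ)) (gn m r : ℤ), (if j < 0 then (4 / (gn m r : ℂ)) *
      ∑ Y ∈ range (2 ^ m), ∑ i ∈ range r, fc J (sh Y) k * fc (gn m r) (gp m r Y i) j else 0) *
        fourier j (t : AddCircle T) =
      ((4 / (gn m r : ℂ)) * ∑ Y ∈ range (2 ^ m), ∑ i ∈ range r, fc J (sh Y) k *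
        (if j < 0 then fc (gn m r) (gp m r Y i) j else 0)) * fourier j (t : AddCircle T) := by
    intro j _
    split_ifs
    · rfl
    · simp
  rw [sum_congr rfl h1, swap_sum (4 / (gn m r : ℂ)) (2 ^ m) r (fun Y => fc J (sh Y) k)
    (fun Y i j => if j < 0 then fc (gn m r) (gp m r Y i) j else 0)]
  congr 1
  refine sum_congr rfl fun Y _ => sum_congr rfl fun i _ => ?_
  rw [sum_fc_neg]

lemma ev2_rho {m r J : ℕ} {sh : ℕ → ℝ} (t u : ℝ) :
    ev2 (rho m r J sh) (t : AddCircle T) (u : AddCircle T) = (((4 / (gn m r : ℝ)) *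
      ∑ Y ∈ range (2 ^ m), ∑ i ∈ range r, fk (gn m r) (gn m r) (t / T - gp m r Y i) *
        fk J J (u / T - sh Y) : ℝ) : ℂ) := by
  unfold rho
  rw [ev2_cutF]
  have h1 : ∀ k ∈ Icc (-(J : ℤ)) (J : ℤ), ev (cutF (gn m r) (fun j => (4 / (gn m r : ℂ)) *
      ∑ Y ∈ range (2 ^ m), ∑ i ∈ range r, fc J (sh Y) k * fc (gn m r) (gp m r Y i) j)) (t : AddCircle T) *
        fourier k (u : AddCircle T) = ((4 / (gn m r : ℂ)) *
      ∑ Y ∈ range (2 ^ m), ∑ i ∈ range r, (1 : ℂ) *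
        (((fk (gn m r) (gn m r) (t / T - gp m r Y i) : ℝ) : ℂ) * fc J (sh Y) k)) *
        fourier k (u : AddCircle T) := by
    intro k hk
    have hk' : |k| ≤ (J : ℤ) := abs_le.mpr (mem_Icc.mp hk)
    have := ev_rho (T := T) (m := m) (r := r) (sh := sh) hk' t
    unfold rho at this
    rw [cutF_small _ _ hk'] at this
    rw [this]
    congr 2
    refine sum_congr rfl fun Y _ => sum_congr rfl fun i _ => ?_
    ring
  rw [sum_congr rfl h1, swap_sum (4 / (gn m r : ℂ)) (2 ^ m) r (fun _ => (1 : ℂ))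
    (fun Y i k => ((fk (gn m r) (gn m r) (t / T - gp m r Y i) : ℝ) : ℂ) * fc J (sh Y) k)]
  push_cast
  congr 1
  refine sum_congr rfl fun Y _ => sum_congr rfl fun i _ => ?_
  rw [one_mul]
  have h2 := sum_fc (T := T) (K := J) (sh Y) u
  rw [← h2, mul_sum]
  refine sum_congr rfl fun k _ => ?_
  ring

lemma rho_zero_zero {m r J : ℕ} {sh : ℕ → ℝ} (hr : 0 < r) : (rho m r J sh 0) 0 = 1 := by
  unfold rho
  have hr' : (r : ℂ) ≠ 0 := by exact_mod_cast hr.ne'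
  rw [cutF_small _ _ (by simp), cutF_small _ _ (by simp)]
  simp only [fc_zero, mul_one, sum_const, card_range, nsmul_eq_mul]
  have : (gn m r : ℂ) = 4 * r * 2 ^ m := by unfold gn; push_cast; ring
  rw [this]
  push_cast
  field_simp

lemma ev_rho_zero {m r J : ℕ} {sh : ℕ → ℝ} (t : ℝ) :
    ev (rho m r J sh 0) (t : AddCircle T) = ((4 * Th m r (t / T) : ℝ) : ℂ) := by
  rw [ev_rho (by simp)]
  unfold Th
  push_cast
  simp only [fc_zero, one_mul]
  ring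

end

end Vale.Agent.P091.H788
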