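import Vale.Agent.P091.H409.Defs

set_option linter.all false

/-! Fejer kernels: sums, decay, the negative frequency half. -/

namespace Vale.Agent.P091.H788

open Finset Real MeasureTheory AddCircle Vale.Agent.P091 Vale.Agent.P091.H409

/-- finitely supported function obtained by cutting to `[-J, J]`. -/
noncomputable def cutF {M : Type*} [Zero M] (J : ℕ) (f : ℤ → M) : ℤ →₀ M :=
  Finsupp.onFinset (Icc (-(J : ℤ)) (J : ℤ))
    (fun k => if k ∈ Icc (-(J : ℤ)) (J : ℤ) then f k else 0)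
    (fun k hk => by
      by_contra h
      exact hk (if_neg h))

lemma cutF_apply {M : Type*} [Zero M] (J : ℕ) (f : ℤ → M) (k : ℤ) :
    cutF J f k = if k ∈ Icc (-(J : ℤ)) (J : ℤ) then f k else 0 := rfl

lemma cutF_large {M : Type*} [Zero M] (J : ℕ) (f : ℤ → M) {k : ℤ} (hk : (J : ℤ) < |k|) :
    cutF J f k = 0 := by
  rw [cutF_apply, if_neg]
  rw [mem_Icc]
  intro h
  have := abs_le.mpr h
  omega

lemma cutF_small {M : Type*} [Zero M] (J : ℕ) (f : ℤ → M) {k : ℤ} (hk : |k| ≤ (J : ℤ)) :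
    cutF J f k = f k := by
  rw [cutF_apply, if_pos]
  rw [mem_Icc]
  exact abs_le.mp hk

lemma cutF_support {M : Type*} [Zero M] (J : ℕ) (f : ℤ → M) :
    (cutF J f).support ⊆ Icc (-(J : ℤ)) (J : ℤ) := Finsupp.support_onFinset_subset

lemma sum_cutF {M : Type*} [AddCommMonoid M] (J : ℕ) (f : ℤ → M) (g : ℤ → M → ℂ)
    (hg : ∀ k, g k 0 = 0) :
    (cutF J f).sum g = ∑ k ∈ Icc (-(J : ℤ)) (J : ℤ), g k (f k) := by
  rw [Finsupp.sum_of_support_subset _ (cutF_support J f) _ (fun k _ => hg k)]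
  refine sum_congr rfl fun k hk => ?_
  rw [cutF_apply, if_pos hk]

lemma ev_cutF {T : ℝ} (J : ℕ) (f : ℤ → ℂ) (x : AddCircle T) :
    ev (cutF J f) x = ∑ k ∈ Icc (-(J : ℤ)) (J : ℤ), f k * fourier k x := by
  unfold ev
  rw [sum_cutF]
  intro k
  rw [zero_mul]

lemma ev2_cutF {T : ℝ} (J : ℕ) (f : ℤ → (ℤ →₀ ℂ)) (x y : AddCircle T) :
    ev2 (cutF J f) x y = ∑ k ∈ Icc (-(J : ℤ)) (J : ℤ), ev (f k) x * fourier k y := by
  unfold ev2
  rw [sum_cutF]
  intro k
  unfold ev
  rw [Finsupp.sum_zero_index, zero_mul]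

lemma trunc_cutF (J : ℕ) (f : ℤ → ℂ) :
    trunc 0 (cutF J f) = cutF J (fun k => if k < 0 then f k else 0) := by
  unfold trunc
  ext k
  rw [Finsupp.filter_apply, cutF_apply, cutF_apply]
  split_ifs <;> rfl

/-- phase factor with Fejer weight. -/
noncomputable def fc (K : ℕ) (p : ℝ) (k : ℤ) : ℂ :=
  ((1 - |(k : ℝ)| / K : ℝ) : ℂ) * Complex.exp (-(2 * π * Complex.I * k * p))

lemma fc_zero (K : ℕ) (p : ℝ) : fc K p 0 = 1 := by
  unfold fc
  simp

lemma sum_fc {T : ℝ} [hT : Fact (0 < T)] {K : ℕ} (p t : ℝ) :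
    ∑ k ∈ Icc (-(K : ℤ)) (K : ℤ), fc K p k * fourier k (t : AddCircle T) =
      ((fk K K (t / T - p) : ℝ) : ℂ) := by
  have h := trigSum_fcoef (T := T) (K := K) (n := 1) (N := K) one_pos le_rfl (fun _ => p) t
  have h2 : trigSum (fcoef K 1 (fun _ => p)) K (t : AddCircle T) =
      ∑ k ∈ Icc (-(K : ℤ)) (K : ℤ), fc K p k * fourier k (t : AddCircle T) := by
    unfold trigSum
    refine sum_congr rfl fun k hk => ?_
    congr 1
    unfold fcoef fc
    rw [if_pos (abs_le.mpr (mem_Icc.mp hk))]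
    simp
  rw [← h2, h]
  simp

/-- the negative half of the Fejer kernel -/
noncomputable def GG (n : ℕ) (v : ℝ) : ℂ :=
  ∑ k ∈ range n, ((1 - ((k : ℝ) + 1) / n : ℝ) : ℂ) * Complex.exp (-(2 * π * Complex.I * v)) ^ (k + 1)

lemma sum_fc_neg {T : ℝ} [hT : Fact (0 < T)] {n : ℕ} (p t : ℝ) :
    ∑ k ∈ Icc (-(n : ℤ)) (n : ℤ), (if k < 0 then fc n p k else 0) * fourier k (t : AddCircle T) =
      GG n (t / T - p) := by
  have hT0 : (T : ℂ) ≠ 0 := by exact_mod_cast hT.out.ne'
  rw [sum_Icc_symm]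
  unfold GG
  rw [if_neg (lt_irrefl _), zero_mul, zero_add]
  refine sum_congr rfl fun k _ => ?_
  rw [if_neg (by omega), if_pos (by omega), zero_mul, zero_add]
  unfold fc
  rw [fourier_coe_apply, mul_assoc, ← Complex.exp_add, ← Complex.exp_nat_mul]
  have hr2 : |((-((k : ℤ) + 1) : ℤ) : ℝ)| = (k : ℝ) + 1 := by
    push_cast
    rw [abs_neg]
    exact abs_of_nonneg (by positivity)
  rw [hr2]
  congr 2
  push_cast
  field_simp
  ring

lemma geom_aux {z : ℂ} (hz : z ≠ 1) (n : ℕ) :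
    ∑ k ∈ range n, z ^ (k + 1) = z * (1 - z ^ n) / (1 - z) := by
  have h1 : (1 - z) ≠ 0 := sub_ne_zero.mpr (Ne.symm hz)
  rw [eq_div_iff h1]
  induction n with
  | zero => simp
  | succ n ih =>
    rw [sum_range_succ, add_mul, ih]
    ring

lemma cesaro_aux {z : ℂ} (hz : z ≠ 1) (n : ℕ) :
    ∑ k ∈ range n, ((n : ℂ) - ((k : ℂ) + 1)) * z ^ (k + 1) =
      n * (z / (1 - z)) - z * (1 - z ^ n) / (1 - z) ^ 2 := by
  have h1 : (1 - z) ≠ 0 := sub_ne_zero.mpr (Ne.symm hz)
  induction n with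
  | zero => simp
  | succ n ih =>
    rw [sum_range_succ]
    have h2 : ∑ k ∈ range n, (((n + 1 : ℕ) : ℂ) - ((k : ℂ) + 1)) * z ^ (k + 1) =
        ∑ k ∈ range n, ((n : ℂ) - ((k : ℂ) + 1)) * z ^ (k + 1) + ∑ k ∈ range n, z ^ (k + 1) := by
      rw [← sum_add_distrib]
      refine sum_congr rfl fun k _ => ?_
      push_cast
      ring
    rw [h2, ih, geom_aux hz]
    push_cast
    field_simp
    ring

lemma exp_ne_one {v : ℝ} (hv : sin (π * v) ≠ 0) : Complex.exp (-(2 * π * Complex.I * v)) ≠ 1 := by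
  intro h
  apply hv
  rw [Complex.exp_eq_one_iff] at h
  obtain ⟨n, hn⟩ := h
  have h1 : (v : ℂ) = -(n : ℂ) := by
    have hpi : (π : ℂ) ≠ 0 := by exact_mod_cast Real.pi_ne_zero
    have : (2 * π * Complex.I : ℂ) * (v + n) = 0 := by
      linear_combination -hn
    have h2 : (2 * π * Complex.I : ℂ) ≠ 0 := by
      simp [hpi, Complex.I_ne_zero]
    have h3 := (mul_eq_zero.mp this).resolve_left h2
    linear_combination h3
  have h2 : v = ((-n : ℤ) : ℝ) := by
    push_cast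
    exact_mod_cast h1
  rw [h2, mul_comm]
  exact Real.sin_int_mul_pi _

lemma exp_formula {v : ℝ} :
    1 - Complex.exp (-(2 * π * Complex.I * v)) =
      2 * Complex.I * (sin (π * v) : ℝ) * Complex.exp (-(π * Complex.I * v)) := by
  have h1 : ((sin (π * v) : ℝ) : ℂ) =
      (Complex.exp (-((π * v : ℂ) * Complex.I)) - Complex.exp ((π * v : ℂ) * Complex.I)) * Complex.I / 2 := by
    push_cast
    rw [Complex.sin]
    ring_nf
  rw [h1]
  have h2 : Complex.exp (-(2 * π * Complex.I * v)) =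
      Complex.exp (-((π * v : ℂ) * Complex.I)) * Complex.exp (-(π * Complex.I * v)) := by
    rw [← Complex.exp_add]; ring_nf
  have h3 : Complex.exp ((π * v : ℂ) * Complex.I) * Complex.exp (-(π * Complex.I * v)) = 1 := by
    rw [← Complex.exp_add, ← Complex.exp_zero]
    congr 1
    ring
  have h4 : Complex.I ^ 2 = -1 := Complex.I_sq
  rw [h2]
  linear_combination -h3 + (Complex.exp (-((π * v : ℂ) * Complex.I)) * Complex.exp (-(π * Complex.I * v)) - Complex.exp ((π * v : ℂ) * Complex.I) * Complex.exp (-(π * Complex.I * v))) * (-h4)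

lemma norm_exp_I (y : ℝ) : ‖Complex.exp (-(2 * π * Complex.I * y))‖ = 1 := by
  have : -(2 * π * Complex.I * y) = ((-(2 * π * y) : ℝ) : ℂ) * Complex.I := by push_cast; ring
  rw [this, Complex.norm_exp_ofReal_mul_I]

lemma norm_one_sub {v : ℝ} :
    ‖1 - Complex.exp (-(2 * π * Complex.I * v))‖ = 2 * |sin (π * v)| := by
  rw [exp_formula, norm_mul, norm_mul, norm_mul, Complex.norm_I, Complex.norm_real, Real.norm_eq_abs]
  have : -(π * Complex.I * v) = ((-(π * v) : ℝ) : ℂ) * Complex.I := by push_cast; ring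
  rw [this, Complex.norm_exp_ofReal_mul_I]
  norm_num

lemma frac_formula {v : ℝ} (hv : sin (π * v) ≠ 0) :
    Complex.exp (-(2 * π * Complex.I * v)) / (1 - Complex.exp (-(2 * π * Complex.I * v))) =
      -1 / 2 - Complex.I / 2 * (ct v : ℝ) := by
  have h1 : Complex.exp (-(2 * π * Complex.I * v)) =
      Complex.exp (-(π * Complex.I * v)) * Complex.exp (-(π * Complex.I * v)) := by
    rw [← Complex.exp_add]; ring_nf
  have h2 : Complex.exp (-(π * Complex.I * v)) = (cos (π * v) : ℝ) - Complex.I * (sin (π * v) : ℝ) := by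
    have : -(π * Complex.I * v) = ((-(π * v) : ℝ) : ℂ) * Complex.I := by push_cast; ring
    rw [this, Complex.exp_mul_I]
    push_cast
    rw [Complex.cos_neg, Complex.sin_neg]
    ring
  have hne : Complex.exp (-(π * Complex.I * v)) ≠ 0 := Complex.exp_ne_zero _
  have hs : ((sin (π * v) : ℝ) : ℂ) ≠ 0 := by exact_mod_cast hv
  rw [exp_formula]
  rw [h1]
  have h3 : Complex.exp (-(π * Complex.I * v)) * Complex.exp (-(π * Complex.I * v)) /
      (2 * Complex.I * (sin (π * v) : ℝ) * Complex.exp (-(π * Complex.I * v))) =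
      Complex.exp (-(π * Complex.I * v)) / (2 * Complex.I * (sin (π * v) : ℝ)) := by
    rw [mul_div_mul_right _ _ hne]
  rw [h3, h2]
  unfold ct
  push_cast
  push_cast at hs
  rw [div_eq_iff (by simp [Complex.I_ne_zero, hs])]
  have h4 : Complex.I ^ 2 = -1 := Complex.I_sq
  field_simp
  linear_combination (Complex.cos (π * v)) * h4

lemma GG_approx {n : ℕ} (hn : 0 < n) {v : ℝ} (hv : sin (π * v) ≠ 0) :
    ‖GG n v - (-1 / 2 - Complex.I / 2 * (ct v : ℝ))‖ ≤ 1 / (2 * (n * sin (π * v) ^ 2)) := by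
  set z : ℂ := Complex.exp (-(2 * π * Complex.I * v)) with hz
  have hz1 : z ≠ 1 := exp_ne_one hv
  have hn0 : (n : ℂ) ≠ 0 := by exact_mod_cast hn.ne'
  have hnr : (0 : ℝ) < n := by exact_mod_cast hn
  have h1 : GG n v = z / (1 - z) - z * (1 - z ^ n) / (n * (1 - z) ^ 2) := by
    have h2 : (n : ℂ) * GG n v = ∑ k ∈ range n, ((n : ℂ) - ((k : ℂ) + 1)) * z ^ (k + 1) := by
      unfold GG
      rw [mul_sum]
      refine sum_congr rfl fun k _ => ?_
      rw [← hz]
      push_cast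
      field_simp
    rw [cesaro_aux hz1] at h2
    have h3 : (1 - z) ≠ 0 := sub_ne_zero.mpr (Ne.symm hz1)
    apply mul_left_cancel₀ hn0
    rw [h2]
    field_simp
  rw [h1, ← frac_formula hv, ← hz, sub_sub_cancel_left, norm_neg, norm_div, norm_mul, norm_mul, norm_pow]
  have h4 : ‖z‖ = 1 := by rw [hz]; exact norm_exp_I v
  have h5 : ‖1 - z‖ = 2 * |sin (π * v)| := by rw [hz]; exact norm_one_sub
  have h6 : ‖1 - z ^ n‖ ≤ 2 := by
    refine (norm_sub_le _ _).trans ?_
    rw [norm_one, norm_pow, h4, one_pow]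
    norm_num
  rw [h4, h5, one_mul, Complex.norm_natCast, mul_pow, sq_abs]
  have h7 : 0 < sin (π * v) ^ 2 := by positivity
  rw [div_le_div_iff₀ (by positivity) (by positivity)]
  nlinarith [mul_pos hnr h7]

/-- decay of the Fejer kernel -/
lemma fk_decay {K : ℕ} (hK : 0 < K) {v : ℝ} (hv : sin (π * v) ≠ 0) :
    fk K K v ≤ 1 / (K * sin (π * v) ^ 2) := by
  have hK' : (0 : ℝ) < K := by exact_mod_cast hK
  rw [fk_full K hK]
  set z : ℂ := Complex.exp (-(2 * π * Complex.I * v)) with hz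
  have hz1 : z ≠ 1 := exp_ne_one hv
  have h1 : (1 - z) ≠ 0 := sub_ne_zero.mpr (Ne.symm hz1)
  have h2 : ∑ k ∈ range K, z ^ k = (((∑ k ∈ range K, cos (2 * π * k * v)) : ℝ) : ℂ) -
      Complex.I * (((∑ k ∈ range K, sin (2 * π * k * v)) : ℝ) : ℂ) := by
    push_cast
    rw [mul_sum, ← sum_sub_distrib]
    refine sum_congr rfl fun k _ => ?_
    rw [hz, ← Complex.exp_nat_mul]
    have : (k : ℂ) * -(2 * π * Complex.I * v) = (-(2 * π * k * v)) * Complex.I := by ring
    rw [this, Complex.exp_mul_I, Complex.cos_neg, Complex.sin_neg]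
    ring
  have h3 : ‖∑ k ∈ range K, z ^ k‖ ^ 2 = (∑ k ∈ range K, cos (2 * π * k * v)) ^ 2 +
      (∑ k ∈ range K, sin (2 * π * k * v)) ^ 2 := by
    rw [h2, ← Complex.normSq_eq_norm_sq]
    generalize (∑ k ∈ range K, cos (2 * π * k * v)) = a
    generalize (∑ k ∈ range K, sin (2 * π * k * v)) = b
    rw [Complex.normSq_apply]
    simp
    ring
  have h4 : (1 - z) * ∑ k ∈ range K, z ^ k = 1 - z ^ K := by
    have := mul_neg_geom_sum z K
    exact this
  have h5 : ‖1 - z‖ * ‖∑ k ∈ range K, z ^ k‖ ≤ 2 := by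
    rw [← norm_mul, h4]
    refine (norm_sub_le _ _).trans ?_
    rw [norm_one, norm_pow, hz, norm_exp_I, one_pow]
    norm_num
  rw [← h3]
  have h6 : ‖1 - z‖ = 2 * |sin (π * v)| := by rw [hz]; exact norm_one_sub
  rw [h6] at h5
  have h7 : 0 < |sin (π * v)| := abs_pos.mpr hv
  have h8 : |sin (π * v)| * ‖∑ k ∈ range K, z ^ k‖ ≤ 1 := by linarith
  have h9 : (|sin (π * v)| * ‖∑ k ∈ range K, z ^ k‖) ^ 2 ≤ 1 := by
    apply pow_le_one₀ (by positivity) h8
  rw [mul_pow, sq_abs] at h9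
  have h10 : 0 < sin (π * v) ^ 2 := by positivity
  rw [div_le_div_iff₀ hK' (by positivity)]
  nlinarith

lemma grid_cos {n : ℕ} {k : ℕ} (hk0 : 0 < k) (hk : k < n) (t : ℝ) :
    ∑ p ∈ range n, cos (2 * π * k * (t - p / n)) = 0 := by
  have hn : 0 < n := by omega
  have hn' : (n : ℝ) ≠ 0 := by positivity
  have hnc : (n : ℂ) ≠ 0 := by exact_mod_cast hn.ne'
  set w : ℂ := Complex.exp (-(2 * π * Complex.I * ((k / n : ℝ) : ℂ))) with hw
  have hw1 : w ≠ 1 := by
    rw [hw]
    apply exp_ne_one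
    apply ne_of_gt
    apply Real.sin_pos_of_pos_of_lt_pi
    · positivity
    · have : (k / n : ℝ) < 1 := by rw [div_lt_one (by positivity)]; exact_mod_cast hk
      nlinarith [Real.pi_pos]
  have hwn : w ^ n = 1 := by
    rw [hw, ← Complex.exp_nat_mul, Complex.exp_eq_one_iff]
    refine ⟨-(k : ℤ), ?_⟩
    push_cast
    field_simp
  have h1 : ∑ p ∈ range n, w ^ p = 0 := by
    rw [geom_sum_eq hw1, hwn]
    simp
  have h2 : ∑ p ∈ range n, cos (2 * π * k * (t - p / n)) =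
      (Complex.exp (((2 * π * k * t : ℝ) : ℂ) * Complex.I) * ∑ p ∈ range n, w ^ p).re := by
    rw [mul_sum, Complex.re_sum]
    refine sum_congr rfl fun p _ => ?_
    rw [hw, ← Complex.exp_nat_mul, ← Complex.exp_add]
    have : (((2 * π * k * t : ℝ) : ℂ) * Complex.I + p * -(2 * π * Complex.I * ((k / n : ℝ) : ℂ))) =
        ((2 * π * k * (t - p / n) : ℝ) : ℂ) * Complex.I := by
      push_cast
      ring
    rw [this, Complex.exp_ofReal_mul_I_re]
  rw [h2, h1, mul_zero, Complex.zero_re]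

/-- the full grid sum of Fejer kernels -/
lemma grid_sum {n : ℕ} (hn : 0 < n) (t : ℝ) :
    ∑ p ∈ range n, fk n n (t - p / n) = n := by
  have hn' : (0 : ℝ) < n := by exact_mod_cast hn
  unfold fk
  rw [sum_add_distrib, ← mul_sum, sum_comm]
  have h1 : ∀ k ∈ range n, ∑ p ∈ range n, (1 - ((k : ℝ) + 1) / n) * cos (2 * π * (k + 1) * (t - p / n)) = 0 := by
    intro k hk
    have hk' := mem_range.mp hk
    rw [← mul_sum]
    rcases Nat.lt_or_ge (k + 1) n with h | h
    · have := grid_cos (n := n) (k := k + 1) (by omega) h t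
      push_cast at this
      rw [this, mul_zero]
    · have : ((k : ℝ) + 1) = n := by
        have : k + 1 = n := by omega
        exact_mod_cast this
      rw [this, div_self hn'.ne', sub_self, zero_mul]
  rw [sum_eq_zero h1]
  simp

end Vale.Agent.P091.H788
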