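import Vale.Agent.P091.H788.Factor

set_option linter.all false

/-! Lower bound for the negative half at the points of the third quarters. -/

namespace Vale.Agent.P091.H788

open Finset Real MeasureTheory AddCircle Vale.Agent.P091 Vale.Agent.P091.H409

lemma GG_close {m r : ℕ} (hr : 0 < r) (hbig : 8 * (2 ^ m : ℝ) ^ 2 ≤ gn m r) {v : ℝ}
    (hv : 2 * ((1 / 4) / ((2 ^ m : ℕ) : ℝ)) ≤ |sin (π * v)|) :
    ‖GG (gn m r) v - (-1 / 2 - Complex.I / 2 * (ct v : ℝ))‖ ≤ 1 / 4 := by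
  have hg : (0 : ℝ) < gn m r := by exact_mod_cast gn_pos hr
  have hp : (0 : ℝ) < 2 ^ m := by positivity
  have h0 : (0 : ℝ) < 2 * ((1 / 4) / ((2 ^ m : ℕ) : ℝ)) := by positivity
  have h1 : 0 < |sin (π * v)| := lt_of_lt_of_le h0 hv
  refine (GG_approx (gn_pos hr) (abs_pos.mp h1)).trans ?_
  rw [← sq_abs (sin _)]
  have h2 : (2 * ((1 / 4) / ((2 ^ m : ℕ) : ℝ))) ^ 2 ≤ |sin (π * v)| ^ 2 := by gcongr
  have h3 : 2 ≤ (gn m r : ℝ) * |sin (π * v)| ^ 2 := by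
    calc (2 : ℝ) = 8 * (2 ^ m : ℝ) ^ 2 * (2 * ((1 / 4) / ((2 ^ m : ℕ) : ℝ))) ^ 2 := by
          push_cast
          field_simp
          norm_num
      _ ≤ gn m r * |sin (π * v)| ^ 2 := by gcongr
  rw [div_le_div_iff₀ (by positivity) (by norm_num)]
  linarith

lemma GG_norm {m r : ℕ} (hr : 0 < r) (hbig : 8 * (2 ^ m : ℝ) ^ 2 ≤ gn m r) {v : ℝ}
    (hv : 2 * ((1 / 4) / ((2 ^ m : ℕ) : ℝ)) ≤ |sin (π * v)|) (hv0 : 0 < |v|) (hv1 : |v| ≤ 7 / 8) :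
    ‖GG (gn m r) v‖ ≤ (1 + (1 / |v| + 8) / 2) / 2 + 1 / 4 := by
  have h1 := GG_close hr hbig hv
  have h2 := abs_ct_le (ρ := 1 / 8) hv0 (by linarith) (by norm_num)
  rw [← abs_ct_abs] at h2
  have h3 : ‖(-1 / 2 - Complex.I / 2 * (ct v : ℝ) : ℂ)‖ ≤ (1 + |ct v|) / 2 := by
    refine (norm_sub_le _ _).trans ?_
    rw [norm_mul, norm_div, norm_div, norm_neg, norm_one, Complex.norm_I, Complex.norm_real,
      Real.norm_eq_abs]
    norm_num
    linarith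
  have h4 : ‖GG (gn m r) v‖ ≤ ‖GG (gn m r) v - (-1 / 2 - Complex.I / 2 * (ct v : ℝ))‖ +
      ‖(-1 / 2 - Complex.I / 2 * (ct v : ℝ) : ℂ)‖ := by
    have := norm_add_le (GG (gn m r) v - (-1 / 2 - Complex.I / 2 * (ct v : ℝ)))
      (-1 / 2 - Complex.I / 2 * (ct v : ℝ))
    rwa [sub_add_cancel] at this
  have h5 : (1 : ℝ) / (1 / 8) = 8 := by norm_num
  rw [h5] at h2
  linarith

/-- signed part -/
lemma GG_im {m r : ℕ} (hr : 0 < r) (hbig : 8 * (2 ^ m : ℝ) ^ 2 ≤ gn m r) {v : ℝ} {b : Prop} [Decidable b]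
    (hv : 2 * ((1 / 4) / ((2 ^ m : ℕ) : ℝ)) ≤ |sin (π * v)|) (hb : b → 0 < v) (hb' : ¬ b → v < 0)
    (hv1 : |v| ≤ 7 / 8) :
    1 / (10 * |v|) - 21 / 4 ≤ (if b then (-1 : ℝ) else 1) * (GG (gn m r) v).im := by
  have h1 := GG_close hr hbig hv
  have hv0 : 0 < |v| := by
    by_cases h : b
    · exact abs_pos.mpr (hb h).ne'
    · exact abs_pos.mpr (hb' h).ne
  have h2 := ct_lower (ρ := 1 / 8) hv0 (by linarith) (by norm_num)
  have h3 : |(GG (gn m r) v).im + ct v / 2| ≤ 1 / 4 := by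
    have h4 := (Complex.abs_im_le_norm (GG (gn m r) v - (-1 / 2 - Complex.I / 2 * (ct v : ℝ)))).trans h1
    have h5 : (GG (gn m r) v - (-1 / 2 - Complex.I / 2 * (ct v : ℝ))).im = (GG (gn m r) v).im + ct v / 2 := by
      have h6 : (-1 / 2 - Complex.I / 2 * (ct v : ℝ) : ℂ) = ((-1 / 2 : ℝ) : ℂ) - ((ct v / 2 : ℝ) : ℂ) * Complex.I := by
        push_cast; ring
      rw [h6, Complex.sub_im, Complex.sub_im, Complex.ofReal_im, Complex.im_ofReal_mul, Complex.I_im]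
      ring
    rwa [h5] at h4
  have h6 := abs_le.mp h3
  have e1 : 1 / (10 * |v|) = (1 / (5 * |v|)) / 2 := by
    field_simp
    norm_num
  have h7 : (1 : ℝ) / (1 / 8) = 8 := by norm_num
  rw [h7] at h2
  rw [e1]
  split_ifs with h
  · rw [abs_of_pos (hb h)] at h2 ⊢
    linarith [h6.1, h6.2]
  · rw [abs_of_neg (hb' h)] at h2 ⊢
    rw [ct_neg] at h2
    linarith [h6.1, h6.2]

/-- one term, other cells -/
lemma cell_v {X Y : ℕ} {δ : ℝ} (hXY : X ≠ Y) (h1 : 1 / 4 ≤ δ) (h2 : δ ≤ 3 / 4) :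
    |(X : ℝ) - Y| / 4 ≤ |(((X : ℤ) - (Y : ℤ) : ℤ) : ℝ) + δ| ∧
    |(((X : ℤ) - (Y : ℤ) : ℤ) : ℝ) + δ| ≤ |(X : ℝ) - Y| + 1 ∧
    (Y < X → 0 < (((X : ℤ) - (Y : ℤ) : ℤ) : ℝ) + δ) ∧
    (¬ (Y < X) → (((X : ℤ) - (Y : ℤ) : ℤ) : ℝ) + δ < 0) ∧ 1 ≤ |(X : ℝ) - Y| := by
  push_cast
  rcases Nat.lt_or_gt_of_ne hXY with h | h
  · have h' : (X : ℝ) + 1 ≤ Y := by exact_mod_cast h
    rw [abs_of_nonpos (by linarith : (X : ℝ) - Y ≤ 0), abs_of_nonpos (by linarith : (X : ℝ) - Y + δ ≤ 0)]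
    refine ⟨by linarith, by linarith, fun hc => by omega, fun _ => by linarith, by linarith⟩
  · have h' : (Y : ℝ) + 1 ≤ X := by exact_mod_cast h
    rw [abs_of_nonneg (by linarith : 0 ≤ (X : ℝ) - Y), abs_of_nonneg (by linarith : 0 ≤ (X : ℝ) - Y + δ)]
    refine ⟨by linarith, by linarith, fun _ => by linarith, fun hc => absurd h hc, by linarith⟩

/-- the perturbed sign -/
lemma perturb {s e : ℝ} {G : ℂ} {g L : ℝ} (hs : s = 1 ∨ s = -1) (hG : ‖G‖ ≤ g) (hL : L ≤ s * G.im) :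
    L - 2 * π * |e| * g ≤ (((s : ℝ) : ℂ) * Complex.exp (-(2 * π * Complex.I * e)) * G).im := by
  have hpi := Real.pi_pos
  have h1 : ((s : ℝ) : ℂ) * Complex.exp (-(2 * π * Complex.I * e)) * G =
      ((s : ℝ) : ℂ) * G - ((s : ℝ) : ℂ) * (1 - Complex.exp (-(2 * π * Complex.I * e))) * G := by ring
  rw [h1, Complex.sub_im, Complex.im_ofReal_mul]
  have h2 : ‖((s : ℝ) : ℂ) * (1 - Complex.exp (-(2 * π * Complex.I * e))) * G‖ ≤ 2 * π * |e| * g := by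
    rw [norm_mul, norm_mul, norm_one_sub, Complex.norm_real]
    have h3 : ‖s‖ = 1 := by rcases hs with h | h <;> rw [h] <;> simp
    rw [h3, one_mul]
    have h4 : |sin (π * e)| ≤ π * |e| := by
      have := Real.abs_sin_sub_sin_le (π * e) 0
      rw [sin_zero, sub_zero, sub_zero, abs_mul, abs_of_pos hpi] at this
      exact this
    have h5 : 0 ≤ |sin (π * e)| := abs_nonneg _
    have h6 : 0 ≤ ‖G‖ := norm_nonneg _
    calc 2 * |sin (π * e)| * ‖G‖ ≤ 2 * (π * |e|) * g := by gcongr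
      _ = _ := by ring
  have h3 := (Complex.abs_im_le_norm _).trans h2
  have h4 := (abs_le.mp h3).2
  linarith

/-- the frequency phase -/
lemma phase_eq {q s m X Y : ℕ} (hq : Even q) (hq2 : 2 ≤ q) (hs : 0 < s) (hX : X < 2 ^ m)
    (hY : Y < 2 ^ m) :
    ∃ e : ℝ, |e| ≤ (∑ i ∈ range m, wt q s i X Y) / 2 + (m : ℝ) ^ 2 * ((q : ℝ) ^ s)⁻¹ ∧
      Complex.exp (-(2 * π * Complex.I * ((freq q s m X : ℕ) : ℂ) * shift q s m Y)) =
        (((if Y < X then (-1 : ℝ) else 1) : ℝ) : ℂ) * Complex.exp (-(2 * π * Complex.I * e)) := by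
  obtain ⟨z, hz⟩ := freq_mul_shift (m := m) hq hq2 hs hX hY
  refine ⟨(freq q s m X : ℝ) * shift q s m Y - (if Y < X then 1 / 2 else 0) - z, hz.trans ?_, ?_⟩
  · have : 0 ≤ (m : ℝ) ^ 2 * ((q : ℝ) ^ s)⁻¹ := by positivity
    linarith
  · have h1 : -(2 * π * Complex.I * ((freq q s m X : ℕ) : ℂ) * shift q s m Y) =
        -(2 * π * Complex.I * (((freq q s m X : ℝ) * shift q s m Y - (if Y < X then 1 / 2 else 0) - z : ℝ) : ℂ)) +
        (-(2 * π * Complex.I * (((if Y < X then 1 / 2 else 0 : ℝ)) : ℂ)) + ((-z : ℤ) : ℂ) * (2 * π * Complex.I)) := by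
      push_cast
      ring
    rw [h1, Complex.exp_add, Complex.exp_add, Complex.exp_int_mul_two_pi_mul_I, mul_one, mul_comm]
    congr 1
    split_ifs
    · have : -(2 * π * Complex.I * ((1 / 2 : ℝ) : ℂ)) = -(π * Complex.I) := by push_cast; ring
      rw [this, Complex.exp_neg, Complex.exp_pi_mul_I]
      norm_num
    · simp

end Vale.Agent.P091.H788
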